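import Mathlib

/-! # P045 AC: power series with coefficients in `[-1,1]`: quantitative identity theorem.

If `|∑ c_k t^k| ≥ ξ` for some `t ∈ [0, 1-δ]` then `|∑ c_k (1-s)^k| > η` for some `s` in a fixed
finite subset `S` of `(0, ε]`; `S` and `η` depend on `δ, ξ, ε` only. -/

open Filter Topology Set Metric

namespace Vale.Agent.P045

/-- value of the power series -/
noncomputable def acF (c : ℕ → ℝ) (t : ℝ) : ℝ := ∑' k, c k * t ^ k

/-- the box of coefficient sequences -/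
def acBox : Set (ℕ → ℝ) := Set.pi univ fun _ => Icc (-1) 1

theorem acBox_mem {c : ℕ → ℝ} (hc : ∀ k, |c k| ≤ 1) : c ∈ acBox :=
  fun k _ => abs_le.1 (hc k)

theorem acBox_abs {c : ℕ → ℝ} (hc : c ∈ acBox) (k : ℕ) : |c k| ≤ 1 := abs_le.2 (hc k trivial)

theorem ac_cont (r : ℝ) (hr0 : 0 ≤ r) (hr : r < 1) :
    ContinuousOn (fun x : (ℕ → ℝ) × ℝ => acF x.1 x.2) (acBox ×ˢ Icc 0 r) := by
  unfold acF
  refine continuousOn_tsum (u := fun k => r ^ k) ?_ (summable_geometric_of_lt_one hr0 hr) ?_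
  · intro k
    apply Continuous.continuousOn
    fun_prop
  · intro k x hx
    have h1 := acBox_abs hx.1 k
    have h2 : x.2 ^ k ≤ r ^ k := pow_le_pow_left₀ hx.2.1 hx.2.2 k
    have h3 : 0 ≤ x.2 ^ k := pow_nonneg hx.2.1 k
    rw [Real.norm_eq_abs, abs_mul, abs_of_nonneg h3]
    calc |x.1 k| * x.2 ^ k ≤ 1 * x.2 ^ k := mul_le_mul_of_nonneg_right h1 h3
      _ ≤ r ^ k := by rwa [one_mul]

/-- identity theorem -/
theorem ac_identity {c : ℕ → ℝ} (hc : c ∈ acBox) {δ ε t : ℝ} (hδ : 0 < δ) (hε : 0 < ε)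
    (hε1 : ε < 1) (ht0 : 0 ≤ t) (ht : t ≤ 1 - δ) (hne : acF c t ≠ 0) :
    ∃ s, 0 < s ∧ s ≤ ε ∧ acF c (1 - s) ≠ 0 := by
  by_contra hcon
  push Not at hcon
  obtain ⟨ρ, hρ⟩ : ∃ ρ : ℝ, ρ = 1 - min δ (ε / 2) / 2 := ⟨_, rfl⟩
  have hm0 : 0 < min δ (ε / 2) := lt_min hδ (by positivity)
  have hm1 : min δ (ε / 2) ≤ δ := min_le_left _ _
  have hm2 : min δ (ε / 2) ≤ ε / 2 := min_le_right _ _
  have hρ1 : ρ < 1 := by rw [hρ]; linarith
  have hρ0 : 0 < ρ := by rw [hρ]; linarith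
  have htρ : t < ρ := by rw [hρ]; linarith
  obtain ⟨G, hG⟩ : ∃ G : ℂ → ℂ, G = fun z => ∑' k, (c k : ℂ) * z ^ k := ⟨_, rfl⟩
  have hGd : DifferentiableOn ℂ G (ball 0 ρ) := by
    rw [hG]
    refine Complex.differentiableOn_tsum_of_summable_norm (u := fun k => ρ ^ k)
      (summable_geometric_of_lt_one hρ0.le hρ1) ?_ isOpen_ball ?_
    · intro k
      fun_prop
    · intro k z hz
      have h1 := acBox_abs hc k
      have h2 : ‖z‖ ≤ ρ := by
        have : ‖z‖ < ρ := by simpa using hz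
        exact this.le
      rw [norm_mul, norm_pow, Complex.norm_real, Real.norm_eq_abs]
      calc |c k| * ‖z‖ ^ k ≤ 1 * ‖z‖ ^ k :=
            mul_le_mul_of_nonneg_right h1 (pow_nonneg (norm_nonneg _) k)
        _ ≤ ρ ^ k := by
            rw [one_mul]
            exact pow_le_pow_left₀ (norm_nonneg _) h2 k
  have hGr : ∀ x : ℝ, G (x : ℂ) = ((acF c x : ℝ) : ℂ) := by
    intro x
    rw [hG]
    unfold acF
    rw [Complex.ofReal_tsum]
    refine tsum_congr fun k => ?_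
    push_cast
    ring
  have hGa : AnalyticOnNhd ℂ G (ball 0 ρ) := hGd.analyticOnNhd isOpen_ball
  obtain ⟨x₀, hx₀⟩ : ∃ x₀ : ℝ, x₀ = 1 - 3 * ε / 4 := ⟨_, rfl⟩
  have hx₀m : (x₀ : ℂ) ∈ ball (0:ℂ) ρ := by
    rw [mem_ball, dist_zero_right, Complex.norm_real, Real.norm_eq_abs, abs_lt, hx₀, hρ]
    constructor <;> linarith
  have hfreq : ∃ᶠ z in 𝓝[≠] (x₀ : ℂ), G z = 0 := by
    have h1 : Tendsto (fun n : ℕ => ((x₀ + ε / 8 * (1 / ((n:ℝ) + 1)) : ℝ) : ℂ)) atTop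
        (𝓝[≠] (x₀ : ℂ)) := by
      rw [tendsto_nhdsWithin_iff]
      constructor
      · have h2 : Tendsto (fun n : ℕ => x₀ + ε / 8 * (1 / ((n:ℝ) + 1))) atTop (𝓝 (x₀ + ε / 8 * 0)) :=
          (tendsto_one_div_add_atTop_nhds_zero_nat.const_mul (ε / 8)).const_add x₀
        rw [mul_zero, add_zero] at h2
        exact (Complex.continuous_ofReal.tendsto x₀).comp h2
      · refine Eventually.of_forall fun n => ?_
        rw [mem_compl_iff, mem_singleton_iff, Complex.ofReal_inj]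
        have : 0 < ε / 8 * (1 / ((n:ℝ) + 1)) := by positivity
        linarith
    refine h1.frequently (Frequently.of_forall fun n => ?_)
    rw [hGr, Complex.ofReal_eq_zero]
    have h3 : 1 / ((n:ℝ) + 1) ≤ 1 := by
      rw [div_le_one (by positivity)]
      have : (0:ℝ) ≤ n := Nat.cast_nonneg n
      linarith
    have h4 : 0 < 1 / ((n:ℝ) + 1) := by positivity
    have h5 : ε / 8 * (1 / ((n:ℝ) + 1)) ≤ ε / 8 * 1 := mul_le_mul_of_nonneg_left h3 (by positivity)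
    have h6 : 0 < ε / 8 * (1 / ((n:ℝ) + 1)) := by positivity
    have h7 := hcon (1 - (x₀ + ε / 8 * (1 / ((n:ℝ) + 1)))) (by rw [hx₀]; linarith)
      (by rw [hx₀]; linarith)
    rw [sub_sub_cancel] at h7
    exact h7
  have hzero := hGa.eqOn_zero_of_preconnected_of_frequently_eq_zero
    (convex_ball (0:ℂ) ρ).isPreconnected hx₀m hfreq
  have htm : (t : ℂ) ∈ ball (0:ℂ) ρ := by
    rw [mem_ball, dist_zero_right, Complex.norm_real, Real.norm_eq_abs, abs_of_nonneg ht0]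
    exact htρ
  have h8 := hzero htm
  rw [hGr] at h8
  have h9 : ((acF c t : ℝ) : ℂ) = 0 := h8
  exact hne (Complex.ofReal_eq_zero.1 h9)

/-- quantitative identity theorem -/
theorem ac_main (δ ξ ε : ℝ) (hδ : 0 < δ) (hξ : 0 < ξ) (hε : 0 < ε) (hε1 : ε < 1) :
    ∃ (S : Finset ℝ) (η : ℝ), 0 < η ∧ (∀ s ∈ S, 0 < s ∧ s ≤ ε) ∧
      ∀ c : ℕ → ℝ, (∀ k, |c k| ≤ 1) → ∀ t, 0 ≤ t → t ≤ 1 - δ → ξ ≤ |acF c t| →
        ∃ s ∈ S, η < |acF c (1 - s)| := by
  by_cases hδ1 : 1 - δ < 0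
  · exact ⟨∅, 1, one_pos, fun s hs => absurd hs (Finset.notMem_empty s),
      fun c _ t h0 h1 => by linarith⟩
  push Not at hδ1
  have hcompBox : IsCompact acBox := isCompact_univ_pi fun _ => isCompact_Icc
  have hK : IsCompact (acBox ×ˢ Icc (0:ℝ) (1 - δ)) := hcompBox.prod isCompact_Icc
  have hcont := ac_cont (1 - δ) hδ1 (by linarith)
  obtain ⟨K', hK'⟩ : ∃ K' : Set ((ℕ → ℝ) × ℝ), K' = (acBox ×ˢ Icc (0:ℝ) (1 - δ)) ∩
      (fun x : (ℕ → ℝ) × ℝ => acF x.1 x.2) ⁻¹' {y | ξ ≤ |y|} := ⟨_, rfl⟩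
  have hclosed : IsClosed K' := by
    rw [hK']
    exact hcont.preimage_isClosed_of_isClosed hK.isClosed
      (isClosed_le continuous_const continuous_abs)
  have hK'c : IsCompact K' := hK.of_isClosed_subset hclosed (by rw [hK']; exact inter_subset_left)
  have key : ∃ (S : Finset ℝ) (η : ℝ), 0 < η ∧ (∀ s ∈ S, 0 < s ∧ s ≤ ε) ∧
      ∀ x ∈ K', ∃ s ∈ S, η < |acF x.1 (1 - s)| := by
    refine hK'c.induction_on (p := fun A => ∃ (S : Finset ℝ) (η : ℝ), 0 < η ∧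
      (∀ s ∈ S, 0 < s ∧ s ≤ ε) ∧ ∀ x ∈ A, ∃ s ∈ S, η < |acF x.1 (1 - s)|) ?_ ?_ ?_ ?_
    · exact ⟨∅, 1, one_pos, fun s hs => absurd hs (Finset.notMem_empty s),
        fun x hx => absurd hx (notMem_empty x)⟩
    · rintro A B hAB ⟨S, η, h1, h2, h3⟩
      exact ⟨S, η, h1, h2, fun x hx => h3 x (hAB hx)⟩
    · rintro A B ⟨S, η, h1, h2, h3⟩ ⟨S', η', h1', h2', h3'⟩
      classical
      refine ⟨S ∪ S', min η η', lt_min h1 h1', ?_, ?_⟩
      · intro s hs
        rcases Finset.mem_union.1 hs with h | h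
        · exact h2 s h
        · exact h2' s h
      · rintro x (hx | hx)
        · obtain ⟨s, hs, h⟩ := h3 x hx
          exact ⟨s, Finset.mem_union_left _ hs, lt_of_le_of_lt (min_le_left _ _) h⟩
        · obtain ⟨s, hs, h⟩ := h3' x hx
          exact ⟨s, Finset.mem_union_right _ hs, lt_of_le_of_lt (min_le_right _ _) h⟩
    · intro x hx
      have hx' := hx
      rw [hK'] at hx'
      have hne : acF x.1 x.2 ≠ 0 := by
        intro h0
        have h1 : ξ ≤ |acF x.1 x.2| := hx'.2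
        rw [h0, abs_zero] at h1
        linarith
      obtain ⟨s, hs0, hs, hsne⟩ := ac_identity hx'.1.1 hδ hε hε1 hx'.1.2.1 hx'.1.2.2 hne
      have hcs : ContinuousOn (fun y : (ℕ → ℝ) × ℝ => acF y.1 (1 - s)) K' := by
        have h1 := ac_cont (1 - s) (by linarith) (by linarith)
        have h2 : ContinuousOn (fun y : (ℕ → ℝ) × ℝ => (y.1, 1 - s)) K' := by fun_prop
        refine h1.comp h2 ?_
        intro y hy
        rw [hK'] at hy
        exact ⟨hy.1.1, ⟨by simp only; linarith, by simp only; linarith⟩⟩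
      have hpos : 0 < |acF x.1 (1 - s)| := abs_pos.2 hsne
      have hev : ∀ᶠ y in 𝓝[K'] x, |acF x.1 (1 - s)| / 2 < |acF y.1 (1 - s)| := by
        have h3 : Tendsto (fun y : (ℕ → ℝ) × ℝ => |acF y.1 (1 - s)|) (𝓝[K'] x)
            (𝓝 |acF x.1 (1 - s)|) := (hcs x hx).abs
        exact h3.eventually_const_lt (by linarith)
      refine ⟨{y | |acF x.1 (1 - s)| / 2 < |acF y.1 (1 - s)|}, hev, {s},
        |acF x.1 (1 - s)| / 2, by linarith, ?_, ?_⟩
      · intro s' hs'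
        rw [Finset.mem_singleton] at hs'
        rw [hs']
        exact ⟨hs0, hs⟩
      · intro y hy
        exact ⟨s, Finset.mem_singleton_self s, hy⟩
  obtain ⟨S, η, hη, hS, hmain⟩ := key
  refine ⟨S, η, hη, hS, fun c hc t ht0 ht hξt => hmain (c, t) ?_⟩
  rw [hK']
  exact ⟨⟨acBox_mem hc, ht0, ht⟩, hξt⟩

end Vale.Agent.P045
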