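import Vale.Agent.P045.AC

/-! # P045 AC2: measure form of the quantitative identity theorem. -/

open Filter Topology Set Metric MeasureTheory

namespace Vale.Agent.P045

/-- the zeros in a compact interval are finite -/
theorem ac_zeros {c : ℕ → ℝ} (hc : c ∈ acBox) {δ ε t : ℝ} (hδ : 0 < δ) (hε : 0 < ε)
    (hε1 : ε < 1) (ht0 : 0 ≤ t) (ht : t ≤ 1 - δ) (hne : acF c t ≠ 0) :
    {s | s ∈ Icc (ε / 8) ε ∧ acF c (1 - s) = 0}.Finite := by
  by_contra hinf
  obtain ⟨s₀, hs₀, hacc⟩ := Set.Infinite.exists_accPt_of_subset_isCompact hinf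
    (isCompact_Icc (a := ε / 8) (b := ε)) (fun s hs => hs.1)
  obtain ⟨ρ, hρ⟩ : ∃ ρ : ℝ, ρ = 1 - min δ (ε / 8) / 2 := ⟨_, rfl⟩
  have hm0 : 0 < min δ (ε / 8) := lt_min hδ (by positivity)
  have hm1 : min δ (ε / 8) ≤ δ := min_le_left _ _
  have hm2 : min δ (ε / 8) ≤ ε / 8 := min_le_right _ _
  have hρ1 : ρ < 1 := by rw [hρ]; linarith
  have hρ0 : 0 < ρ := by rw [hρ]; linarith
  have htρ : t < ρ := by rw [hρ]; linarith
  obtain ⟨G, hG⟩ : ∃ G : ℂ → ℂ, G = fun z => ∑' k, (c k : ℂ) * z ^ k := ⟨_, rfl⟩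
  have hGd : DifferentiableOn ℂ G (ball 0 ρ) := by
    rw [hG]
    refine Complex.differentiableOn_tsum_of_summable_norm (u := fun k => ρ ^ k)
      (summable_geometric_of_lt_one hρ0.le hρ1) ?_ isOpen_ball ?_
    · intro k
      fun_prop
    · intro k z hz
      have h1 := acBox_abs hc k
      have h2 : ‖z‖ ≤ ρ := by
        have : ‖z‖ < ρ := by simpa using hz
        exact this.le
      rw [norm_mul, norm_pow, Complex.norm_real, Real.norm_eq_abs]
      calc |c k| * ‖z‖ ^ k ≤ 1 * ‖z‖ ^ k :=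
            mul_le_mul_of_nonneg_right h1 (pow_nonneg (norm_nonneg _) k)
        _ ≤ ρ ^ k := by
            rw [one_mul]
            exact pow_le_pow_left₀ (norm_nonneg _) h2 k
  have hGr : ∀ x : ℝ, G (x : ℂ) = ((acF c x : ℝ) : ℂ) := by
    intro x
    rw [hG]
    unfold acF
    rw [Complex.ofReal_tsum]
    refine tsum_congr fun k => ?_
    push_cast
    ring
  have hGa : AnalyticOnNhd ℂ G (ball 0 ρ) := hGd.analyticOnNhd isOpen_ball
  have hx₀m : ((1 - s₀ : ℝ) : ℂ) ∈ ball (0:ℂ) ρ := by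
    rw [mem_ball, dist_zero_right, Complex.norm_real, Real.norm_eq_abs, abs_lt, hρ]
    constructor <;> linarith [hs₀.1, hs₀.2]
  have hfreq : ∃ᶠ z in 𝓝[≠] ((1 - s₀ : ℝ) : ℂ), G z = 0 := by
    rw [accPt_iff_frequently_nhdsNE] at hacc
    have h1 : Tendsto (fun s : ℝ => ((1 - s : ℝ) : ℂ)) (𝓝[≠] s₀) (𝓝[≠] ((1 - s₀ : ℝ) : ℂ)) := by
      rw [tendsto_nhdsWithin_iff]
      constructor
      · have h2 : Continuous fun s : ℝ => ((1 - s : ℝ) : ℂ) := by fun_prop
        exact (h2.tendsto s₀).mono_left nhdsWithin_le_nhds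
      · filter_upwards [self_mem_nhdsWithin] with s hs
        rw [mem_compl_iff, mem_singleton_iff, Complex.ofReal_inj]
        intro h
        apply hs
        rw [mem_singleton_iff]
        linarith
    refine h1.frequently (hacc.mono fun s hs => ?_)
    rw [hGr, hs.2]
    simp
  have hzero := hGa.eqOn_zero_of_preconnected_of_frequently_eq_zero
    (convex_ball (0:ℂ) ρ).isPreconnected hx₀m hfreq
  have htm : (t : ℂ) ∈ ball (0:ℂ) ρ := by
    rw [mem_ball, dist_zero_right, Complex.norm_real, Real.norm_eq_abs, abs_of_nonneg ht0]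
    exact htρ
  have h8 := hzero htm
  rw [hGr] at h8
  have h9 : ((acF c t : ℝ) : ℂ) = 0 := h8
  exact hne (Complex.ofReal_eq_zero.1 h9)

theorem ac_cont_s {c : ℕ → ℝ} (hc : c ∈ acBox) {ε : ℝ} (hε : 0 < ε) (hε1 : ε < 1) :
    ContinuousOn (fun s => acF c (1 - s)) (Icc (ε / 8) ε) := by
  have h1 := ac_cont (1 - ε / 8) (by linarith) (by linarith)
  have h2 : ContinuousOn (fun s : ℝ => (c, 1 - s)) (Icc (ε / 8) ε) := by fun_prop
  refine h1.comp h2 ?_
  intro s hs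
  refine ⟨hc, ⟨?_, ?_⟩⟩
  · simp only; linarith [hs.2]
  · simp only; linarith [hs.1]

/-- the good set is measurable -/
theorem ac_meas {c : ℕ → ℝ} (hc : c ∈ acBox) {ε : ℝ} (hε : 0 < ε) (hε1 : ε < 1) (η : ℝ) :
    MeasurableSet {s | s ∈ Icc (ε / 8) ε ∧ η < |acF c (1 - s)|} := by
  have h1 := (ac_cont_s hc hε hε1).abs
  have h2 : {s | s ∈ Icc (ε / 8) ε ∧ η < |acF c (1 - s)|} =
      Icc (ε / 8) ε \ (Icc (ε / 8) ε ∩ (fun s => |acF c (1 - s)|) ⁻¹' Iic η) := by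
    ext s
    simp only [mem_ofPred_eq, Set.mem_sdiff, mem_inter_iff, mem_preimage, mem_Iic, not_and, not_le]
    exact ⟨fun h => ⟨h.1, fun _ => h.2⟩, fun h => ⟨h.1, h.2 h.1⟩⟩
  rw [h2]
  have h3 := h1.preimage_isClosed_of_isClosed isClosed_Icc (isClosed_Iic (a := η))
  exact measurableSet_Icc.diff h3.measurableSet

/-- for one series most of the interval is good -/
theorem ac_single {c : ℕ → ℝ} (hc : c ∈ acBox) {δ ε t : ℝ} (hδ : 0 < δ) (hε : 0 < ε)
    (hε1 : ε < 1) (ht0 : 0 ≤ t) (ht : t ≤ 1 - δ) (hne : acF c t ≠ 0) :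
    ∃ η : ℝ, 0 < η ∧
      ENNReal.ofReal (ε / 2) ≤ volume {s | s ∈ Icc (ε / 8) ε ∧ η < |acF c (1 - s)|} := by
  by_contra hcon
  push Not at hcon
  have hfin := ac_zeros hc hδ hε hε1 ht0 ht hne
  obtain ⟨A, hA⟩ : ∃ A : ℕ → Set ℝ, A = fun n : ℕ => {s | s ∈ Icc (ε / 8) ε ∧
      1 / ((n:ℝ) + 1) < |acF c (1 - s)|} := ⟨_, rfl⟩
  have hmono : Monotone A := by
    intro m n hmn s hs
    rw [hA] at hs ⊢
    refine ⟨hs.1, lt_of_le_of_lt ?_ hs.2⟩
    apply one_div_le_one_div_of_le (by positivity)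
    have : (m:ℝ) ≤ n := by exact_mod_cast hmn
    linarith
  have hU : Icc (ε / 8) ε \ {s | s ∈ Icc (ε / 8) ε ∧ acF c (1 - s) = 0} ⊆ ⋃ n, A n := by
    intro s hs
    have hne' : acF c (1 - s) ≠ 0 := fun h => hs.2 ⟨hs.1, h⟩
    obtain ⟨n, hn⟩ := exists_nat_one_div_lt (abs_pos.2 hne')
    rw [mem_iUnion]
    refine ⟨n, ?_⟩
    rw [hA]
    exact ⟨hs.1, hn⟩
  have hle : volume (⋃ n, A n) ≤ ENNReal.ofReal (ε / 2) := by
    rw [hmono.measure_iUnion]
    refine iSup_le fun n => ?_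
    rw [hA]
    exact (hcon (1 / ((n:ℝ) + 1)) (by positivity)).le
  have h1 : volume (Icc (ε / 8) ε \ {s | s ∈ Icc (ε / 8) ε ∧ acF c (1 - s) = 0}) =
      volume (Icc (ε / 8) ε) := measure_sdiff_null (hfin.measure_zero volume)
  have h2 := (measure_mono hU).trans hle
  rw [h1, Real.volume_Icc, ENNReal.ofReal_le_ofReal_iff (by positivity)] at h2
  linarith

/-- distance of two series on the interval -/
theorem ac_dist {c c' : ℕ → ℝ} (hc : c ∈ acBox) (hc' : c' ∈ acBox) {r t : ℝ} (hr0 : 0 ≤ r)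
    (hr : r < 1) (ht0 : 0 ≤ t) (ht : t ≤ r) :
    |acF c t - acF c' t| ≤ ∑' k, |c k - c' k| * r ^ k := by
  have hs : ∀ d : ℕ → ℝ, d ∈ acBox → Summable fun k => d k * t ^ k := by
    intro d hd
    refine Summable.of_norm_bounded (g := fun k => r ^ k) (summable_geometric_of_lt_one hr0 hr) ?_
    intro k
    rw [Real.norm_eq_abs, abs_mul, abs_of_nonneg (pow_nonneg ht0 k)]
    calc |d k| * t ^ k ≤ 1 * t ^ k := mul_le_mul_of_nonneg_right (acBox_abs hd k) (pow_nonneg ht0 k)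
      _ ≤ r ^ k := by rw [one_mul]; exact pow_le_pow_left₀ ht0 ht k
  have hsd : Summable fun k => |c k - c' k| * r ^ k := by
    refine Summable.of_norm_bounded (g := fun k => 2 * r ^ k)
      ((summable_geometric_of_lt_one hr0 hr).mul_left 2) ?_
    intro k
    rw [Real.norm_eq_abs, abs_of_nonneg (mul_nonneg (abs_nonneg _) (pow_nonneg hr0 k))]
    apply mul_le_mul_of_nonneg_right _ (pow_nonneg hr0 k)
    calc |c k - c' k| ≤ |c k| + |c' k| := abs_sub _ _
      _ ≤ 2 := by linarith [acBox_abs hc k, acBox_abs hc' k]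
  unfold acF
  rw [← (hs c hc).tsum_sub (hs c' hc')]
  have h1 : ∀ k, |c k * t ^ k - c' k * t ^ k| ≤ |c k - c' k| * r ^ k := by
    intro k
    rw [← sub_mul, abs_mul, abs_of_nonneg (pow_nonneg ht0 k)]
    exact mul_le_mul_of_nonneg_left (pow_le_pow_left₀ ht0 ht k) (abs_nonneg _)
  have h2 : Summable fun k => |c k * t ^ k - c' k * t ^ k| :=
    Summable.of_nonneg_of_le (fun k => abs_nonneg _) h1 hsd
  calc |∑' k, (c k * t ^ k - c' k * t ^ k)| ≤ ∑' k, |c k * t ^ k - c' k * t ^ k| := by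
        have := norm_tsum_le_tsum_norm (f := fun k => c k * t ^ k - c' k * t ^ k) h2
        simpa [Real.norm_eq_abs] using this
    _ ≤ ∑' k, |c k - c' k| * r ^ k := h2.tsum_le_tsum h1 hsd

/-- measure form of the quantitative identity theorem -/
theorem ac_measure (δ ξ ε : ℝ) (hδ : 0 < δ) (hξ : 0 < ξ) (hε : 0 < ε) (hε1 : ε < 1) :
    ∃ η : ℝ, 0 < η ∧ ∀ c : ℕ → ℝ, (∀ k, |c k| ≤ 1) → ∀ t, 0 ≤ t → t ≤ 1 - δ → ξ ≤ |acF c t| →
      ENNReal.ofReal (ε / 2) ≤ volume {s | s ∈ Icc (ε / 8) ε ∧ η < |acF c (1 - s)|} := by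
  by_cases hδ1 : 1 - δ < 0
  · exact ⟨1, one_pos, fun c _ t h0 h1 => by linarith⟩
  push Not at hδ1
  have hcompBox : IsCompact acBox := isCompact_univ_pi fun _ => isCompact_Icc
  have hK : IsCompact (acBox ×ˢ Icc (0:ℝ) (1 - δ)) := hcompBox.prod isCompact_Icc
  have hcont := ac_cont (1 - δ) hδ1 (by linarith)
  obtain ⟨K', hK'⟩ : ∃ K' : Set ((ℕ → ℝ) × ℝ), K' = (acBox ×ˢ Icc (0:ℝ) (1 - δ)) ∩
      (fun x : (ℕ → ℝ) × ℝ => acF x.1 x.2) ⁻¹' {y | ξ ≤ |y|} := ⟨_, rfl⟩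
  have hclosed : IsClosed K' := by
    rw [hK']
    exact hcont.preimage_isClosed_of_isClosed hK.isClosed
      (isClosed_le continuous_const continuous_abs)
  have hK'c : IsCompact K' := hK.of_isClosed_subset hclosed (by rw [hK']; exact inter_subset_left)
  have key : ∃ η : ℝ, 0 < η ∧ ∀ x ∈ K',
      ENNReal.ofReal (ε / 2) ≤ volume {s | s ∈ Icc (ε / 8) ε ∧ η < |acF x.1 (1 - s)|} := by
    refine hK'c.induction_on (p := fun A => ∃ η : ℝ, 0 < η ∧ ∀ x ∈ A,
      ENNReal.ofReal (ε / 2) ≤ volume {s | s ∈ Icc (ε / 8) ε ∧ η < |acF x.1 (1 - s)|}) ?_ ?_ ?_ ?_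
    · exact ⟨1, one_pos, fun x hx => absurd hx (notMem_empty x)⟩
    · rintro A B hAB ⟨η, h1, h3⟩
      exact ⟨η, h1, fun x hx => h3 x (hAB hx)⟩
    · rintro A B ⟨η, h1, h3⟩ ⟨η', h1', h3'⟩
      refine ⟨min η η', lt_min h1 h1', ?_⟩
      rintro x (hx | hx)
      · refine (h3 x hx).trans (measure_mono fun s hs => ⟨hs.1, ?_⟩)
        exact lt_of_le_of_lt (min_le_left _ _) hs.2
      · refine (h3' x hx).trans (measure_mono fun s hs => ⟨hs.1, ?_⟩)
        exact lt_of_le_of_lt (min_le_right _ _) hs.2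
    · intro x hx
      have hx' := hx
      rw [hK'] at hx'
      have hne : acF x.1 x.2 ≠ 0 := by
        intro h0
        have h1 : ξ ≤ |acF x.1 x.2| := hx'.2
        rw [h0, abs_zero] at h1
        linarith
      obtain ⟨η, hη, hvol⟩ := ac_single hx'.1.1 hδ hε hε1 hx'.1.2.1 hx'.1.2.2 hne
      obtain ⟨r, hr⟩ : ∃ r : ℝ, r = 1 - ε / 8 := ⟨_, rfl⟩
      have hr0 : 0 ≤ r := by rw [hr]; linarith
      have hr1 : r < 1 := by rw [hr]; linarith
      have hcd : ContinuousOn (fun y : (ℕ → ℝ) × ℝ => ∑' k, |y.1 k - x.1 k| * r ^ k) K' := by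
        refine continuousOn_tsum (u := fun k => 2 * r ^ k) ?_
          ((summable_geometric_of_lt_one hr0 hr1).mul_left 2) ?_
        · intro k
          apply Continuous.continuousOn
          fun_prop
        · intro k y hy
          rw [hK'] at hy
          rw [Real.norm_eq_abs, abs_of_nonneg (mul_nonneg (abs_nonneg _) (pow_nonneg hr0 k))]
          apply mul_le_mul_of_nonneg_right _ (pow_nonneg hr0 k)
          calc |y.1 k - x.1 k| ≤ |y.1 k| + |x.1 k| := abs_sub _ _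
            _ ≤ 2 := by linarith [acBox_abs hy.1.1 k, acBox_abs hx'.1.1 k]
      have hd0 : ∑' k, |x.1 k - x.1 k| * r ^ k = 0 := by simp
      have hev : ∀ᶠ y in 𝓝[K'] x, ∑' k, |y.1 k - x.1 k| * r ^ k < η / 2 := by
        have h3 := hcd x hx
        have h4 : Tendsto (fun y : (ℕ → ℝ) × ℝ => ∑' k, |y.1 k - x.1 k| * r ^ k) (𝓝[K'] x)
            (𝓝 0) := by
          rw [← hd0]; exact h3
        exact h4.eventually_lt_const (by positivity)
      have hev2 : ∀ᶠ y in 𝓝[K'] x, y ∈ K' := self_mem_nhdsWithin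
      refine ⟨{y | ∑' k, |y.1 k - x.1 k| * r ^ k < η / 2 ∧ y ∈ K'}, hev.and hev2, η / 2,
        by positivity, ?_⟩
      intro y hy
      refine hvol.trans (measure_mono fun s hs => ⟨hs.1, ?_⟩)
      have hyK := hy.2
      rw [hK'] at hyK
      have h5 := ac_dist hyK.1.1 hx'.1.1 hr0 hr1 (t := 1 - s) (by linarith [hs.1.2])
        (by rw [hr]; linarith [hs.1.1])
      have h6 : |acF x.1 (1 - s)| ≤ |acF y.1 (1 - s)| + |acF y.1 (1 - s) - acF x.1 (1 - s)| := by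
        have := abs_sub_abs_le_abs_sub (acF x.1 (1 - s)) (acF y.1 (1 - s))
        rw [abs_sub_comm] at this
        linarith
      have h7 := hs.2
      have h8 := hy.1
      linarith
  obtain ⟨η, hη, hmain⟩ := key
  refine ⟨η, hη, fun c hc t ht0 ht hξt => hmain (c, t) ?_⟩
  rw [hK']
  exact ⟨⟨acBox_mem hc, ht0, ht⟩, hξt⟩

/-- averaging over `s`: for some `s` at least half of the series are large -/
theorem ac_avg {ι : Type*} (B : Finset ι) (g : ι → ℕ → ℝ) (hg : ∀ i ∈ B, ∀ k, |g i k| ≤ 1)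
    {ε η : ℝ} (hε : 0 < ε) (hε1 : ε < 1)
    (h : ∀ i ∈ B, ENNReal.ofReal (ε / 2) ≤
      volume {s | s ∈ Icc (ε / 8) ε ∧ η < |acF (g i) (1 - s)|}) :
    ∃ s, 0 < s ∧ s ≤ ε ∧
      (B.card : ℝ) / 2 ≤ ((B.filter fun i => η < |acF (g i) (1 - s)|).card : ℝ) := by
  classical
  by_contra hcon
  push Not at hcon
  have hB : 0 < B.card := by
    have h1 := hcon ε hε le_rfl
    have h2 : (0:ℝ) ≤ ((B.filter fun i => η < |acF (g i) (1 - ε)|).card : ℝ) := Nat.cast_nonneg _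
    have h3 : (0:ℝ) < (B.card : ℝ) / 2 := lt_of_le_of_lt h2 h1
    have h4 : (0:ℝ) < B.card := by linarith
    exact_mod_cast h4
  have hle : ∀ s ∈ Icc (ε / 8) ε, ∑ i ∈ B, ({s | s ∈ Icc (ε / 8) ε ∧
      η < |acF (g i) (1 - s)|}.indicator (fun _ => (1 : ENNReal)) s) ≤
      ENNReal.ofReal ((B.card : ℝ) / 2) := by
    intro s hs
    have h1 : ∑ i ∈ B, ({s | s ∈ Icc (ε / 8) ε ∧
      η < |acF (g i) (1 - s)|}.indicator (fun _ => (1 : ENNReal)) s) =
      ((B.filter fun i => η < |acF (g i) (1 - s)|).card : ENNReal) := by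
      rw [Finset.card_filter, Nat.cast_sum]
      refine Finset.sum_congr rfl fun i _ => ?_
      rw [Set.indicator_apply]
      by_cases hi : η < |acF (g i) (1 - s)|
      · rw [if_pos hi, if_pos ⟨hs, hi⟩]; simp
      · rw [if_neg hi, if_neg (fun h => hi h.2)]; simp
    rw [h1, ← ENNReal.ofReal_natCast]
    apply ENNReal.ofReal_le_ofReal
    exact (hcon s (by linarith [hs.1]) hs.2).le
  have hint1 : (B.card : ENNReal) * ENNReal.ofReal (ε / 2) ≤
      ∫⁻ s in Icc (ε / 8) ε, ∑ i ∈ B, ({s | s ∈ Icc (ε / 8) ε ∧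
      η < |acF (g i) (1 - s)|}.indicator (fun _ => (1 : ENNReal)) s) := by
    rw [lintegral_finsetSum']
    · have h2 : ∀ i ∈ B, ENNReal.ofReal (ε / 2) ≤ ∫⁻ s in Icc (ε / 8) ε, ({s | s ∈ Icc (ε / 8) ε ∧
          η < |acF (g i) (1 - s)|}.indicator (fun _ => (1 : ENNReal)) s) := by
        intro i hi
        have hm := ac_meas (acBox_mem (hg i hi)) hε hε1 η
        rw [lintegral_indicator hm, setLIntegral_one, Measure.restrict_apply hm]
        refine (h i hi).trans (measure_mono fun s hs => ⟨hs, hs.1⟩)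
      calc (B.card : ENNReal) * ENNReal.ofReal (ε / 2) = ∑ _i ∈ B, ENNReal.ofReal (ε / 2) := by
            rw [Finset.sum_const, nsmul_eq_mul]
        _ ≤ _ := Finset.sum_le_sum h2
    · intro i hi
      have hm := ac_meas (acBox_mem (hg i hi)) hε hε1 η
      exact (measurable_const.indicator hm).aemeasurable
  have hint2 : ∫⁻ s in Icc (ε / 8) ε, ∑ i ∈ B, ({s | s ∈ Icc (ε / 8) ε ∧
      η < |acF (g i) (1 - s)|}.indicator (fun _ => (1 : ENNReal)) s) ≤
      ENNReal.ofReal ((B.card : ℝ) / 2) * volume (Icc (ε / 8) ε) := by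
    calc ∫⁻ s in Icc (ε / 8) ε, ∑ i ∈ B, ({s | s ∈ Icc (ε / 8) ε ∧
      η < |acF (g i) (1 - s)|}.indicator (fun _ => (1 : ENNReal)) s)
        ≤ ∫⁻ _s in Icc (ε / 8) ε, ENNReal.ofReal ((B.card : ℝ) / 2) :=
          setLIntegral_mono measurable_const hle
      _ = _ := setLIntegral_const _ _
  have h3 := hint1.trans hint2
  rw [Real.volume_Icc, ← ENNReal.ofReal_natCast, ← ENNReal.ofReal_mul (by positivity),
    ← ENNReal.ofReal_mul (by positivity), ENNReal.ofReal_le_ofReal_iff (by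
      have : 0 ≤ ε - ε / 8 := by linarith
      positivity)] at h3
  have h4 : (0:ℝ) < B.card := by exact_mod_cast hB
  nlinarith

end Vale.Agent.P045
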