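import Vale.Agent.P045.GDefs

/-! # P045 GAtyp: few lines are atypical. -/

namespace Vale.Agent.P045

open Finset

variable {V Λ : Type} [Fintype V] [DecidableEq V] [Fintype Λ] [DecidableEq Λ]

theorem sum_card_inter {q : ℕ} {pts : Λ → Finset V} (h : AffPlane V Λ q pts) (U : Finset V) :
    ∑ l, ((pts l ∩ U).card : ℝ) = (q + 1) * U.card := by
  have h1 : ∀ l, ((pts l ∩ U).card : ℝ) = ∑ v ∈ U, if v ∈ pts l then (1:ℝ) else 0 := by
    intro l
    rw [inter_comm, ← filter_mem_eq_inter, card_filter]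
    push_cast
    rfl
  simp_rw [h1]
  rw [sum_comm]
  have h2 : ∀ v ∈ U, ∑ l, (if v ∈ pts l then (1:ℝ) else 0) = q + 1 := by
    intro v _
    have h3 := h.deg v
    rw [card_filter] at h3
    exact_mod_cast h3
  rw [sum_congr rfl h2, sum_const, nsmul_eq_mul, mul_comm]

theorem sum_card_inter_sq {q : ℕ} {pts : Λ → Finset V} (h : AffPlane V Λ q pts) (U : Finset V) :
    ∑ l, ((pts l ∩ U).card : ℝ) ^ 2 = U.card * (q + U.card) := by
  have h1 : ∀ l, ((pts l ∩ U).card : ℝ) ^ 2 =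
      ∑ v ∈ U, ∑ w ∈ U, if v ∈ pts l ∧ w ∈ pts l then (1:ℝ) else 0 := by
    intro l
    have h1 : ((pts l ∩ U).card : ℝ) = ∑ v ∈ U, if v ∈ pts l then (1:ℝ) else 0 := by
      rw [inter_comm, ← filter_mem_eq_inter, card_filter]
      push_cast
      rfl
    rw [h1, sq, sum_mul_sum]
    refine sum_congr rfl fun v _ => sum_congr rfl fun w _ => ?_
    by_cases hv : v ∈ pts l <;> by_cases hw : w ∈ pts l <;> simp [hv, hw]
  simp_rw [h1]
  rw [sum_comm]
  have h2 : ∀ v ∈ U, ∑ l, ∑ w ∈ U, (if v ∈ pts l ∧ w ∈ pts l then (1:ℝ) else 0) = q + U.card := by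
    intro v hv
    rw [sum_comm, ← add_sum_erase U _ hv]
    have h3 : ∑ l, (if v ∈ pts l ∧ v ∈ pts l then (1:ℝ) else 0) = q + 1 := by
      have h3 := h.deg v
      rw [card_filter] at h3
      simp only [and_self]
      exact_mod_cast h3
    have h4 : ∀ w ∈ U.erase v, ∑ l, (if v ∈ pts l ∧ w ∈ pts l then (1:ℝ) else 0) = 1 := by
      intro w hw
      have h5 := h.meet v w (ne_of_mem_erase hw).symm
      rw [card_filter] at h5
      exact_mod_cast h5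
    rw [h3, sum_congr rfl h4, sum_const, nsmul_eq_mul, mul_one, card_erase_of_mem hv]
    have h5 : 1 ≤ U.card := card_pos.2 ⟨v, hv⟩
    rw [Nat.cast_sub h5]
    push_cast
    ring
  rw [sum_congr rfl h2, sum_const, nsmul_eq_mul]

theorem atyp_card {q : ℕ} (hq : 1 ≤ q) {pts : Λ → Finset V} (h : AffPlane V Λ q pts)
    {θ : ℝ} (hθ : 0 < θ) (U : Finset V) : ((atyp pts q θ U).card : ℝ) ≤ q / θ ^ 2 := by
  have hq0 : (0:ℝ) < q := by exact_mod_cast hq
  have hU : (U.card : ℝ) ≤ (q:ℝ) ^ 2 := by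
    have h1 := card_le_univ U
    rw [h.card_V] at h1
    exact_mod_cast h1
  have hU0 : (0:ℝ) ≤ U.card := Nat.cast_nonneg _
  have hL : (∑ _l : Λ, (1:ℝ)) = (q:ℝ) ^ 2 + q := by
    rw [sum_const, card_univ, h.card_L, nsmul_eq_mul, mul_one]
    push_cast
    ring
  have h1 : ∑ l, (((pts l ∩ U).card : ℝ) / q - (U.card : ℝ) / (q:ℝ) ^ 2) ^ 2 ≤ q := by
    have e1 : ∀ l, (((pts l ∩ U).card : ℝ) / q - (U.card : ℝ) / (q:ℝ) ^ 2) ^ 2 =
        (1 / (q:ℝ) ^ 2) * ((pts l ∩ U).card : ℝ) ^ 2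
          - (2 * U.card / (q:ℝ) ^ 3) * ((pts l ∩ U).card : ℝ)
          + ((U.card:ℝ) ^ 2 / (q:ℝ) ^ 4) * 1 := by
      intro l
      field_simp
      ring
    simp_rw [e1]
    rw [sum_add_distrib, sum_sub_distrib, ← mul_sum, ← mul_sum, ← mul_sum, sum_card_inter h,
      sum_card_inter_sq h, hL]
    have e2 : 1 / (q:ℝ) ^ 2 * (U.card * (q + U.card)) - 2 * U.card / (q:ℝ) ^ 3 * ((q + 1) * U.card)
        + (U.card:ℝ) ^ 2 / (q:ℝ) ^ 4 * ((q:ℝ) ^ 2 + q) = U.card / q - (U.card:ℝ) ^ 2 / (q:ℝ) ^ 3 := by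
      field_simp
      ring
    rw [e2]
    have e3 : 0 ≤ (U.card:ℝ) ^ 2 / (q:ℝ) ^ 3 := by positivity
    have e4 : (U.card : ℝ) / q ≤ q := by
      rw [div_le_iff₀ hq0]
      nlinarith
    linarith
  have h2 : ((atyp pts q θ U).card : ℝ) * θ ^ 2 ≤
      ∑ l, (((pts l ∩ U).card : ℝ) / q - (U.card : ℝ) / (q:ℝ) ^ 2) ^ 2 := by
    calc ((atyp pts q θ U).card : ℝ) * θ ^ 2 = ∑ _l ∈ atyp pts q θ U, θ ^ 2 := by
          rw [sum_const, nsmul_eq_mul]
      _ ≤ ∑ l ∈ atyp pts q θ U, (((pts l ∩ U).card : ℝ) / q - (U.card : ℝ) / (q:ℝ) ^ 2) ^ 2 := by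
          refine sum_le_sum fun l hl => ?_
          unfold atyp at hl
          rw [mem_filter] at hl
          rw [← sq_abs (((pts l ∩ U).card : ℝ) / q - (U.card : ℝ) / (q:ℝ) ^ 2)]
          exact pow_le_pow_left₀ hθ.le hl.2.le 2
      _ ≤ _ := sum_le_sum_of_subset_of_nonneg (subset_univ _) fun _ _ _ => sq_nonneg _
  rw [le_div_iff₀ (by positivity)]
  linarith

end Vale.Agent.P045
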