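import Vale.Agent.P045.GDefs

/-! # P045 GBern: Bernoulli expectations. -/

set_option linter.unusedSectionVars false

namespace Vale.Agent.P045

open Finset

variable {Λ : Type} [DecidableEq Λ]

theorem EB_weight_nonneg {s : ℝ} (h0 : 0 ≤ s) (h1 : s ≤ 1) (F σ : Finset Λ) :
    0 ≤ s ^ σ.card * (1 - s) ^ (F.card - σ.card) :=
  mul_nonneg (pow_nonneg h0 _) (pow_nonneg (by linarith) _)

theorem EB_one (F : Finset Λ) (s : ℝ) : EB F s (fun _ => 1) = 1 := by
  unfold EB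
  simp only [mul_one]
  rw [sum_pow_mul_eq_add_pow]
  simp

theorem EB_two_pow (F : Finset Λ) (s : ℝ) : EB F s (fun σ => 2 ^ σ.card) = (1 + s) ^ F.card := by
  unfold EB
  have h1 : ∀ σ ∈ F.powerset, s ^ σ.card * (1 - s) ^ (F.card - σ.card) * 2 ^ σ.card =
      (2 * s) ^ σ.card * (1 - s) ^ (F.card - σ.card) := by
    intro σ _
    rw [mul_pow]; ring
  rw [sum_congr rfl h1, sum_pow_mul_eq_add_pow]
  congr 1
  ring

theorem EB_disj (F : Finset Λ) (s : ℝ) {G : Finset Λ} (hG : G ⊆ F) :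
    EB F s (fun σ => if Disjoint σ G then 1 else 0) = (1 - s) ^ G.card := by
  unfold EB
  have h1 : ∀ σ ∈ F.powerset, s ^ σ.card * (1 - s) ^ (F.card - σ.card) *
      (if Disjoint σ G then (1:ℝ) else 0) =
      if Disjoint σ G then s ^ σ.card * (1 - s) ^ (F.card - σ.card) else 0 := by
    intro σ _
    split_ifs <;> simp
  rw [sum_congr rfl h1, ← sum_filter]
  have h2 : F.powerset.filter (fun σ => Disjoint σ G) = (F \ G).powerset := by
    ext σ
    rw [mem_filter, mem_powerset, mem_powerset, subset_sdiff]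
  rw [h2]
  have h3 : ∀ σ ∈ (F \ G).powerset, s ^ σ.card * (1 - s) ^ (F.card - σ.card) =
      (1 - s) ^ G.card * (s ^ σ.card * (1 - s) ^ ((F \ G).card - σ.card)) := by
    intro σ hσ
    rw [mem_powerset] at hσ
    have h4 := card_le_card hσ
    have h5 := card_sdiff_add_card_eq_card hG
    have h6 : F.card - σ.card = G.card + ((F \ G).card - σ.card) := by omega
    rw [h6, pow_add]
    ring
  rw [sum_congr rfl h3, ← mul_sum, sum_pow_mul_eq_add_pow]
  simp

theorem EB_add (F : Finset Λ) (s : ℝ) (X Y : Finset Λ → ℝ) :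
    EB F s (fun σ => X σ + Y σ) = EB F s X + EB F s Y := by
  unfold EB
  rw [← sum_add_distrib]
  exact sum_congr rfl fun σ _ => by ring

theorem EB_sub (F : Finset Λ) (s : ℝ) (X Y : Finset Λ → ℝ) :
    EB F s (fun σ => X σ - Y σ) = EB F s X - EB F s Y := by
  unfold EB
  rw [← sum_sub_distrib]
  exact sum_congr rfl fun σ _ => by ring

theorem EB_mul (F : Finset Λ) (s : ℝ) (c : ℝ) (X : Finset Λ → ℝ) :
    EB F s (fun σ => c * X σ) = c * EB F s X := by
  unfold EB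
  rw [mul_sum]
  exact sum_congr rfl fun σ _ => by ring

theorem EB_const (F : Finset Λ) (s : ℝ) (c : ℝ) : EB F s (fun _ => c) = c := by
  have h := EB_mul F s c (fun _ => 1)
  rw [EB_one] at h
  simpa using h

theorem EB_sum {ι : Type*} (F : Finset Λ) (s : ℝ) (I : Finset ι) (X : ι → Finset Λ → ℝ) :
    EB F s (fun σ => ∑ i ∈ I, X i σ) = ∑ i ∈ I, EB F s (X i) := by
  unfold EB
  simp_rw [mul_sum]
  rw [sum_comm]

theorem EB_mono {s : ℝ} (h0 : 0 ≤ s) (h1 : s ≤ 1) (F : Finset Λ) {X Y : Finset Λ → ℝ}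
    (h : ∀ σ ⊆ F, X σ ≤ Y σ) : EB F s X ≤ EB F s Y := by
  unfold EB
  refine sum_le_sum fun σ hσ => ?_
  exact mul_le_mul_of_nonneg_left (h σ (mem_powerset.1 hσ)) (EB_weight_nonneg h0 h1 F σ)

theorem EB_congr (F : Finset Λ) (s : ℝ) {X Y : Finset Λ → ℝ} (h : ∀ σ ⊆ F, X σ = Y σ) :
    EB F s X = EB F s Y := by
  unfold EB
  exact sum_congr rfl fun σ hσ => by rw [h σ (mem_powerset.1 hσ)]

/-- some subset is at most the mean -/
theorem EB_exists_le {s : ℝ} (h0 : 0 ≤ s) (h1 : s ≤ 1) (F : Finset Λ) (X : Finset Λ → ℝ) {c : ℝ}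
    (h : EB F s X ≤ c) : ∃ σ ⊆ F, X σ ≤ c := by
  by_contra hcon
  push Not at hcon
  have h2 : ∃ σ ∈ F.powerset, 0 < s ^ σ.card * (1 - s) ^ (F.card - σ.card) := by
    by_contra hall
    push Not at hall
    have h3 := EB_one F s
    unfold EB at h3
    have h4 : ∑ σ ∈ F.powerset, s ^ σ.card * (1 - s) ^ (F.card - σ.card) * 1 ≤ 0 :=
      sum_nonpos fun σ hσ => by rw [mul_one]; exact hall σ hσ
    linarith
  have h5 : EB F s (fun _ => c) < EB F s X := by
    unfold EB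
    refine sum_lt_sum (fun σ hσ => ?_) ?_
    · exact mul_le_mul_of_nonneg_left (hcon σ (mem_powerset.1 hσ)).le (EB_weight_nonneg h0 h1 F σ)
    · obtain ⟨σ, hσ, hpos⟩ := h2
      exact ⟨σ, hσ, mul_lt_mul_of_pos_left (hcon σ (mem_powerset.1 hσ)) hpos⟩
  rw [EB_const] at h5
  linarith

/-- Chebyshev -/
theorem EB_cheb {s : ℝ} (h0 : 0 ≤ s) (h1 : s ≤ 1) (F : Finset Λ) (N : Finset Λ → ℝ) (m a W : ℝ)
    (ha : 0 < a) (h : EB F s (fun σ => (N σ - m) ^ 2) ≤ W) :
    EB F s (fun σ => if a < |N σ - m| then 1 else 0) ≤ W / a ^ 2 := by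
  have h2 : EB F s (fun σ => if a < |N σ - m| then 1 else 0) ≤
      EB F s (fun σ => 1 / a ^ 2 * (N σ - m) ^ 2) := by
    refine EB_mono h0 h1 F fun σ _ => ?_
    split_ifs with hlt
    · have h3 : a ^ 2 ≤ (N σ - m) ^ 2 := by
        rw [← sq_abs (N σ - m)]
        exact pow_le_pow_left₀ ha.le hlt.le 2
      rw [div_mul_eq_mul_div, one_mul, le_div_iff₀ (by positivity)]
      linarith
    · positivity
  rw [EB_mul] at h2
  refine h2.trans ?_
  rw [div_mul_eq_mul_div, one_mul]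
  exact div_le_div_of_nonneg_right h (by positivity)

/-- number of indices not hit -/
noncomputable def nn {ι : Type*} (I : Finset ι) (G : ι → Finset Λ) (σ : Finset Λ) : ℝ :=
  ∑ i ∈ I, if Disjoint σ (G i) then (1:ℝ) else 0

theorem nn_mean {ι : Type*} (F : Finset Λ) (s : ℝ) (I : Finset ι) (G : ι → Finset Λ)
    (hG : ∀ i ∈ I, G i ⊆ F) : EB F s (nn I G) = ∑ i ∈ I, (1 - s) ^ (G i).card := by
  have h1 : EB F s (nn I G) = EB F s (fun σ => ∑ i ∈ I, if Disjoint σ (G i) then (1:ℝ) else 0) := rfl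
  rw [h1, EB_sum]
  exact sum_congr rfl fun i hi => EB_disj F s (hG i hi)

/-- variance bound -/
theorem nn_var {ι : Type*} {s : ℝ} (h0 : 0 ≤ s) (h1 : s ≤ 1) (F : Finset Λ) (I : Finset ι)
    (G : ι → Finset Λ) (hG : ∀ i ∈ I, G i ⊆ F) :
    EB F s (fun σ => (nn I G σ - ∑ i ∈ I, (1 - s) ^ (G i).card) ^ 2) ≤
      ∑ i ∈ I, ∑ j ∈ I, if Disjoint (G i) (G j) then (0:ℝ) else 1 := by
  obtain ⟨m, hm⟩ : ∃ m, m = ∑ i ∈ I, (1 - s) ^ (G i).card := ⟨_, rfl⟩
  rw [← hm]
  have e1 : EB F s (fun σ => (nn I G σ - m) ^ 2) =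
      EB F s (fun σ => ∑ i ∈ I, ∑ j ∈ I, if Disjoint σ (G i ∪ G j) then (1:ℝ) else 0) - m ^ 2 := by
    have e2 : EB F s (fun σ => (nn I G σ - m) ^ 2) =
        EB F s (fun σ => ((∑ i ∈ I, ∑ j ∈ I, if Disjoint σ (G i ∪ G j) then (1:ℝ) else 0) +
          m ^ 2) - (2 * m) * nn I G σ) := by
      refine EB_congr F s fun σ _ => ?_
      have e3 : (nn I G σ) ^ 2 =
          ∑ i ∈ I, ∑ j ∈ I, if Disjoint σ (G i ∪ G j) then (1:ℝ) else 0 := by
        unfold nn
        rw [sq, sum_mul_sum]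
        refine sum_congr rfl fun i _ => sum_congr rfl fun j _ => ?_
        by_cases hi : Disjoint σ (G i) <;> by_cases hj : Disjoint σ (G j) <;>
          simp [hi, hj, disjoint_union_right]
      rw [← e3]
      ring
    rw [e2, EB_sub, EB_add, EB_const, EB_mul, nn_mean F s I G hG, ← hm]
    ring
  rw [e1, EB_sum]
  have e4 : m ^ 2 = ∑ i ∈ I, ∑ j ∈ I, (1 - s) ^ ((G i).card + (G j).card) := by
    rw [hm, sq, sum_mul_sum]
    refine sum_congr rfl fun i _ => sum_congr rfl fun j _ => ?_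
    rw [pow_add]
  rw [e4, ← sum_sub_distrib]
  refine sum_le_sum fun i hi => ?_
  rw [EB_sum, ← sum_sub_distrib]
  refine sum_le_sum fun j hj => ?_
  rw [EB_disj F s (union_subset (hG i hi) (hG j hj))]
  split_ifs with hd
  · rw [card_union_of_disjoint hd, sub_self]
  · have h2 : (1 - s) ^ (G i ∪ G j).card ≤ 1 := pow_le_one₀ (by linarith) (by linarith)
    have h3 : 0 ≤ (1 - s) ^ ((G i).card + (G j).card) := pow_nonneg (by linarith) _
    linarith

end Vale.Agent.P045
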