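import Vale.Agent.P045.GBern

/-! # P045 GCapt: a random seed captures half of the lines with large excess. -/

set_option linter.unusedSectionVars false

namespace Vale.Agent.P045

open Finset

variable {V Λ : Type} [Fintype V] [DecidableEq V] [Fintype Λ] [DecidableEq Λ]

theorem mem_thr {pts : Λ → Finset V} {F : Finset Λ} {v : V} {l : Λ} :
    l ∈ thr pts F v ↔ l ∈ F ∧ v ∈ pts l := by
  unfold thr
  rw [mem_filter]

theorem meet_unique {q : ℕ} {pts : Λ → Finset V} (h : AffPlane V Λ q pts) {v w : V} (hvw : v ≠ w)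
    {l l' : Λ} (h1 : v ∈ pts l) (h2 : w ∈ pts l) (h3 : v ∈ pts l') (h4 : w ∈ pts l') : l = l' := by
  have h5 := h.meet v w hvw
  rw [card_eq_one] at h5
  obtain ⟨a, ha⟩ := h5
  have h6 : l ∈ ({a} : Finset Λ) := by
    rw [← ha, mem_filter]; exact ⟨mem_univ _, h1, h2⟩
  have h7 : l' ∈ ({a} : Finset Λ) := by
    rw [← ha, mem_filter]; exact ⟨mem_univ _, h3, h4⟩
  rw [mem_singleton] at h6 h7
  rw [h6, h7]

theorem not_hit_iff {pts : Λ → Finset V} {F σ : Finset Λ} (hσ : σ ⊆ F) (v : V) :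
    (∀ l ∈ σ, v ∉ pts l) ↔ Disjoint σ (thr pts F v) := by
  rw [disjoint_left]
  constructor
  · intro h l hl hlt
    exact h l hl (mem_thr.1 hlt).2
  · intro h l hl hv
    exact h hl (mem_thr.2 ⟨hσ hl, hv⟩)

theorem varX {q : ℕ} {pts : Λ → Finset V} (h : AffPlane V Λ q pts) (F : Finset Λ) (Z : Finset V)
    (l : Λ) :
    ∑ v ∈ pts l ∩ Z, ∑ w ∈ pts l ∩ Z,
      (if Disjoint ((thr pts F v).erase l) ((thr pts F w).erase l) then (0:ℝ) else 1) ≤ q := by
  have h1 : ∀ v ∈ pts l ∩ Z, ∑ w ∈ pts l ∩ Z,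
      (if Disjoint ((thr pts F v).erase l) ((thr pts F w).erase l) then (0:ℝ) else 1) ≤ 1 := by
    intro v hv
    rw [← add_sum_erase _ _ hv]
    have h2 : ∑ w ∈ (pts l ∩ Z).erase v,
        (if Disjoint ((thr pts F v).erase l) ((thr pts F w).erase l) then (0:ℝ) else 1) = 0 := by
      refine sum_eq_zero fun w hw => ?_
      rw [if_pos]
      rw [disjoint_left]
      intro l' hl' hl''
      rw [mem_erase, mem_thr] at hl' hl''
      rw [mem_erase, mem_inter] at hw
      rw [mem_inter] at hv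
      exact hl'.1 (meet_unique h (Ne.symm hw.1) hl'.2.2 hl''.2.2 hv.1 hw.2.1)
    rw [h2, add_zero]
    split_ifs <;> norm_num
  calc ∑ v ∈ pts l ∩ Z, ∑ w ∈ pts l ∩ Z,
      (if Disjoint ((thr pts F v).erase l) ((thr pts F w).erase l) then (0:ℝ) else 1)
      ≤ ∑ _v ∈ pts l ∩ Z, (1:ℝ) := sum_le_sum h1
    _ = (pts l ∩ Z).card := by rw [sum_const, nsmul_eq_mul, mul_one]
    _ ≤ q := by
        have h3 := card_le_card (inter_subset_left (s₁ := pts l) (s₂ := Z))
        rw [h.card_pts] at h3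
        exact_mod_cast h3

theorem varY {q : ℕ} {pts : Λ → Finset V} (h : AffPlane V Λ q pts) (F : Finset Λ) (Z : Finset V) :
    ∑ v ∈ Z, ∑ w ∈ Z, (if Disjoint (thr pts F v) (thr pts F w) then (0:ℝ) else 1) ≤
      F.card * (q:ℝ) ^ 2 := by
  have h1 : ∀ v w : V, (if Disjoint (thr pts F v) (thr pts F w) then (0:ℝ) else 1) ≤
      ∑ l ∈ F, (if v ∈ pts l then (1:ℝ) else 0) * (if w ∈ pts l then (1:ℝ) else 0) := by
    intro v w
    have hnn : ∀ l ∈ F, 0 ≤ (if v ∈ pts l then (1:ℝ) else 0) * (if w ∈ pts l then (1:ℝ) else 0) := by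
      intro l _
      split_ifs <;> simp
    split_ifs with hd
    · exact sum_nonneg hnn
    · rw [not_disjoint_iff] at hd
      obtain ⟨l, hl, hl'⟩ := hd
      rw [mem_thr] at hl hl'
      have h2 := single_le_sum hnn hl.1
      rw [if_pos hl.2, if_pos hl'.2, one_mul] at h2
      exact h2
  calc ∑ v ∈ Z, ∑ w ∈ Z, (if Disjoint (thr pts F v) (thr pts F w) then (0:ℝ) else 1)
      ≤ ∑ v ∈ Z, ∑ w ∈ Z, ∑ l ∈ F,
        (if v ∈ pts l then (1:ℝ) else 0) * (if w ∈ pts l then (1:ℝ) else 0) :=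
        sum_le_sum fun v _ => sum_le_sum fun w _ => h1 v w
    _ = ∑ l ∈ F, (∑ v ∈ Z, if v ∈ pts l then (1:ℝ) else 0) *
        (∑ w ∈ Z, if w ∈ pts l then (1:ℝ) else 0) := by
        simp_rw [sum_mul_sum]
        rw [sum_congr rfl fun v _ => sum_comm, sum_comm]
    _ ≤ ∑ _l ∈ F, (q:ℝ) * q := by
        refine sum_le_sum fun l _ => ?_
        have h2 : (∑ v ∈ Z, if v ∈ pts l then (1:ℝ) else 0) ≤ q := by
          rw [← sum_filter, sum_const, nsmul_eq_mul, mul_one]
          have h3 : Z.filter (fun v => v ∈ pts l) ⊆ pts l := fun v hv => (mem_filter.1 hv).2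
          have h4 := card_le_card h3
          rw [h.card_pts] at h4
          exact_mod_cast h4
        have h5 : 0 ≤ (∑ v ∈ Z, if v ∈ pts l then (1:ℝ) else 0) :=
          sum_nonneg fun v _ => by split_ifs <;> norm_num
        exact mul_le_mul h2 h2 h5 (Nat.cast_nonneg q)
    _ = F.card * (q:ℝ) ^ 2 := by rw [sum_const, nsmul_eq_mul]; ring

/-- a random seed captures half of the lines with large excess -/
theorem capt {q : ℕ} (hq : 1 ≤ q) {pts : Λ → Finset V} (h : AffPlane V Λ q pts)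
    {C s η a : ℝ} (hC : 0 ≤ C) (h0 : 0 ≤ s) (h1 : s ≤ 1) (hη : 0 < η) (ha : 0 ≤ a)
    (F : Finset Λ) (hF : (F.card : ℝ) ≤ C * q) (Z : Finset V)
    (hbig : 16 * (1 + C) / (η ^ 2 * q) ≤ 1 / 4) (hseed : (1 + s) ^ F.card ≤ (2:ℝ) ^ a / 4)
    (B : Finset Λ) (hBF : B ⊆ F) (hB : ∀ l ∈ B, η < |gg pts q F Z l s|) :
    ∃ σ ⊆ F, (σ.card : ℝ) ≤ a ∧ (B.card : ℝ) / 2 ≤
      ((B.filter fun l => l ∈ σ ∨
        l ∈ atyp pts q (η / 2) (Z.filter fun v => ∀ l' ∈ σ, v ∉ pts l')).card : ℝ) := by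
  have hq0 : (0:ℝ) < q := by exact_mod_cast hq
  rcases B.eq_empty_or_nonempty with hBe | hBne
  · refine ⟨∅, empty_subset _, by simpa using ha, ?_⟩
    rw [hBe]; simp
  have hBpos : (0:ℝ) < B.card := by exact_mod_cast card_pos.2 hBne
  -- the random variables
  obtain ⟨X, hX⟩ : ∃ X : Λ → Finset Λ → ℝ, X = fun l => nn (pts l ∩ Z) (fun v => (thr pts F v).erase l) :=
    ⟨_, rfl⟩
  obtain ⟨mX, hmX⟩ : ∃ mX : Λ → ℝ, mX = fun l => ∑ v ∈ pts l ∩ Z, (1 - s) ^ ((thr pts F v).erase l).card :=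
    ⟨_, rfl⟩
  obtain ⟨Y, hY⟩ : ∃ Y : Finset Λ → ℝ, Y = nn Z (thr pts F) := ⟨_, rfl⟩
  obtain ⟨mY, hmY⟩ : ∃ mY : ℝ, mY = ∑ v ∈ Z, (1 - s) ^ (thr pts F v).card := ⟨_, rfl⟩
  have hthr : ∀ v ∈ Z, thr pts F v ⊆ F := fun v _ => filter_subset _ _
  have hpX : ∀ l, EB F s (fun σ => if η * q / 4 < |X l σ - mX l| then 1 else 0) ≤
      16 / (η ^ 2 * q) := by
    intro l
    have h2 : EB F s (fun σ => (X l σ - mX l) ^ 2) ≤ q := by
      rw [hX, hmX]
      exact (nn_var h0 h1 F (pts l ∩ Z) (fun v => (thr pts F v).erase l)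
        (fun v _ => (erase_subset _ _).trans (filter_subset _ _))).trans (varX h F Z l)
    refine (EB_cheb h0 h1 F (X l) (mX l) (η * q / 4) q (by positivity) h2).trans ?_
    apply le_of_eq
    field_simp
    ring
  have hpY : EB F s (fun σ => if η * q ^ 2 / 4 < |Y σ - mY| then 1 else 0) ≤
      16 * C / (η ^ 2 * q) := by
    have h2 : EB F s (fun σ => (Y σ - mY) ^ 2) ≤ C * q * (q:ℝ) ^ 2 := by
      rw [hY, hmY]
      refine (nn_var h0 h1 F Z (thr pts F) hthr).trans ((varY h F Z).trans ?_)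
      exact mul_le_mul_of_nonneg_right hF (by positivity)
    refine (EB_cheb h0 h1 F Y mY (η * q ^ 2 / 4) (C * q * (q:ℝ) ^ 2) (by positivity) h2).trans ?_
    apply le_of_eq
    field_simp
    ring
  -- deterministic part
  have hdet : ∀ l ∈ B, ∀ σ ⊆ F,
      (if ¬ (l ∈ σ ∨ l ∈ atyp pts q (η / 2) (Z.filter fun v => ∀ l' ∈ σ, v ∉ pts l'))
        then (1:ℝ) else 0) ≤
      (if η * q / 4 < |X l σ - mX l| then 1 else 0) +
        (if η * q ^ 2 / 4 < |Y σ - mY| then 1 else 0) := by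
    intro l hl σ hσ
    by_cases hdX : η * q / 4 < |X l σ - mX l|
    · rw [if_pos hdX]
      split_ifs <;> norm_num
    · by_cases hdY : η * q ^ 2 / 4 < |Y σ - mY|
      · rw [if_pos hdY]
        split_ifs <;> norm_num
      · rw [if_neg]
        · rw [if_neg hdX, if_neg hdY]; norm_num
        · rw [not_not]
          by_cases hlσ : l ∈ σ
          · exact Or.inl hlσ
          right
          unfold atyp
          rw [mem_filter]
          refine ⟨mem_univ _, ?_⟩
          have hlF := hBF hl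
          have e1 : ((pts l ∩ Z.filter fun v => ∀ l' ∈ σ, v ∉ pts l').card : ℝ) = X l σ := by
            rw [hX]
            unfold nn
            show (_ : ℝ) = ∑ v ∈ pts l ∩ Z, if Disjoint σ ((thr pts F v).erase l) then (1:ℝ) else 0
            rw [← sum_filter, sum_const, nsmul_eq_mul, mul_one]
            congr 2
            ext v
            rw [mem_inter, mem_filter, mem_filter, mem_inter]
            constructor
            · rintro ⟨hv1, hv2, hv3⟩
              refine ⟨⟨hv1, hv2⟩, ?_⟩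
              exact ((not_hit_iff hσ v).1 hv3).mono_right (erase_subset _ _)
            · rintro ⟨⟨hv1, hv2⟩, hv3⟩
              refine ⟨hv1, hv2, fun l' hl' hvl' => ?_⟩
              rw [disjoint_left] at hv3
              refine hv3 hl' ?_
              rw [mem_erase, mem_thr]
              exact ⟨fun h => hlσ (h ▸ hl'), hσ hl', hvl'⟩
          have e2 : ((Z.filter fun v => ∀ l' ∈ σ, v ∉ pts l').card : ℝ) = Y σ := by
            rw [hY]
            unfold nn
            rw [← sum_filter, sum_const, nsmul_eq_mul, mul_one]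
            congr 2
            ext v
            rw [mem_filter, mem_filter, not_hit_iff hσ v]
          rw [e1, e2]
          have e3 : gg pts q F Z l s = mX l / q - mY / (q:ℝ) ^ 2 := by
            unfold gg gphi
            rw [hmX, hmY]
            congr 2
            refine sum_congr rfl fun v hv => ?_
            rw [card_erase_of_mem]
            rw [mem_thr]
            exact ⟨hlF, (mem_inter.1 hv).1⟩
          have hg := hB l hl
          rw [e3] at hg
          push Not at hdX hdY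
          have d1 : |X l σ / q - mX l / q| ≤ η / 4 := by
            rw [← sub_div, abs_div, abs_of_pos hq0, div_le_iff₀ hq0]
            linarith
          have d2 : |Y σ / (q:ℝ) ^ 2 - mY / (q:ℝ) ^ 2| ≤ η / 4 := by
            rw [← sub_div, abs_div, abs_of_pos (by positivity : (0:ℝ) < (q:ℝ) ^ 2),
              div_le_iff₀ (by positivity)]
            linarith
          have d3 : |mX l / q - mY / (q:ℝ) ^ 2| ≤ |X l σ / q - Y σ / (q:ℝ) ^ 2| +
              |X l σ / q - mX l / q| + |Y σ / (q:ℝ) ^ 2 - mY / (q:ℝ) ^ 2| := by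
            have d4 : mX l / q - mY / (q:ℝ) ^ 2 = (X l σ / q - Y σ / (q:ℝ) ^ 2) -
              (X l σ / q - mX l / q) + (Y σ / (q:ℝ) ^ 2 - mY / (q:ℝ) ^ 2) := by ring
            rw [d4]
            refine (abs_add_le _ _).trans ?_
            have d5 := abs_sub (X l σ / q - Y σ / (q:ℝ) ^ 2) (X l σ / q - mX l / q)
            linarith
          linarith
  -- expectation
  obtain ⟨W, hW⟩ : ∃ W : Finset Λ → ℝ, W = fun σ => (∑ l ∈ B,
      if ¬ (l ∈ σ ∨ l ∈ atyp pts q (η / 2) (Z.filter fun v => ∀ l' ∈ σ, v ∉ pts l'))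
        then (1:ℝ) else 0) + B.card * (if a < (σ.card : ℝ) then 1 else 0) := ⟨_, rfl⟩
  have hEW : EB F s W ≤ B.card / 2 := by
    rw [hW, EB_add, EB_sum, EB_mul]
    have h3 : ∑ l ∈ B, EB F s (fun σ =>
        if ¬ (l ∈ σ ∨ l ∈ atyp pts q (η / 2) (Z.filter fun v => ∀ l' ∈ σ, v ∉ pts l'))
        then (1:ℝ) else 0) ≤ ∑ _l ∈ B, (1 / 4 : ℝ) := by
      refine sum_le_sum fun l hl => ?_
      refine (EB_mono h0 h1 F (hdet l hl)).trans ?_
      rw [EB_add]
      have h4 := hpX l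
      have h5 : 16 / (η ^ 2 * q) + 16 * C / (η ^ 2 * q) = 16 * (1 + C) / (η ^ 2 * q) := by
        rw [← add_div]; ring
      linarith
    rw [sum_const, nsmul_eq_mul] at h3
    have h6 : EB F s (fun σ => if a < (σ.card : ℝ) then 1 else 0) ≤ 1 / 4 := by
      have h7 : EB F s (fun σ => if a < (σ.card : ℝ) then 1 else 0) ≤
          EB F s (fun σ => ((2:ℝ) ^ a)⁻¹ * 2 ^ σ.card) := by
        refine EB_mono h0 h1 F fun σ _ => ?_
        have h2a : (0:ℝ) < (2:ℝ) ^ a := by positivity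
        split_ifs with hlt
        · rw [← Real.rpow_natCast, inv_mul_eq_div, le_div_iff₀ h2a, one_mul]
          exact Real.rpow_le_rpow_of_exponent_le (by norm_num) hlt.le
        · positivity
      rw [EB_mul, EB_two_pow] at h7
      refine h7.trans ?_
      have h2a : (0:ℝ) < (2:ℝ) ^ a := by positivity
      rw [inv_mul_le_iff₀ h2a]
      linarith
    have h8 := mul_le_mul_of_nonneg_left h6 hBpos.le
    linarith
  obtain ⟨σ, hσF, hσ⟩ := EB_exists_le h0 h1 F W hEW
  rw [hW] at hσ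
  simp only at hσ
  have hnn : 0 ≤ ∑ l ∈ B, (if ¬ (l ∈ σ ∨
      l ∈ atyp pts q (η / 2) (Z.filter fun v => ∀ l' ∈ σ, v ∉ pts l')) then (1:ℝ) else 0) :=
    sum_nonneg fun l _ => by split_ifs <;> norm_num
  have hcard : (σ.card : ℝ) ≤ a := by
    by_contra hlt
    push Not at hlt
    rw [if_pos hlt, mul_one] at hσ
    linarith
  refine ⟨σ, hσF, hcard, ?_⟩
  rw [if_neg (not_lt.2 hcard), mul_zero, add_zero] at hσ
  have h9 : (B.card : ℝ) = ((B.filter fun l => l ∈ σ ∨
      l ∈ atyp pts q (η / 2) (Z.filter fun v => ∀ l' ∈ σ, v ∉ pts l')).card : ℝ) +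
      ∑ l ∈ B, (if ¬ (l ∈ σ ∨
      l ∈ atyp pts q (η / 2) (Z.filter fun v => ∀ l' ∈ σ, v ∉ pts l')) then (1:ℝ) else 0) := by
    rw [← sum_filter, sum_const, nsmul_eq_mul, mul_one]
    exact_mod_cast (card_filter_add_card_filter_not (s := B) _).symm
  linarith

end Vale.Agent.P045
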