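import Mathlib

/-! # P045 GDefs: affine planes (abstract incidence form), uncovered points, atypical lines,
Bernoulli expectations. -/

namespace Vale.Agent.P045

open Finset

/-- affine plane of order `q` with point set `V`, line set `Λ` -/
structure AffPlane (V Λ : Type) [Fintype V] [DecidableEq V] [Fintype Λ] [DecidableEq Λ]
    (q : ℕ) (pts : Λ → Finset V) : Prop where
  card_V : Fintype.card V = q ^ 2
  card_L : Fintype.card Λ = q ^ 2 + q
  card_pts : ∀ l, (pts l).card = q
  deg : ∀ v, (univ.filter fun l => v ∈ pts l).card = q + 1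
  meet : ∀ v w, v ≠ w → (univ.filter fun l => v ∈ pts l ∧ w ∈ pts l).card = 1

variable {V Λ : Type} [Fintype V] [DecidableEq V] [Fintype Λ] [DecidableEq Λ]

/-- points not covered by `D` -/
def unc (pts : Λ → Finset V) (D : Finset Λ) : Finset V := univ.filter fun v => ∀ l ∈ D, v ∉ pts l

/-- lines that are atypical for `U` -/
noncomputable def atyp (pts : Λ → Finset V) (q : ℕ) (θ : ℝ) (U : Finset V) : Finset Λ :=
  univ.filter fun l => θ < |((pts l ∩ U).card : ℝ) / q - (U.card : ℝ) / (q : ℝ) ^ 2|

/-- expectation over a random subset of `F` of density `s` -/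
noncomputable def EB (F : Finset Λ) (s : ℝ) (X : Finset Λ → ℝ) : ℝ :=
  ∑ σ ∈ F.powerset, s ^ σ.card * (1 - s) ^ (F.card - σ.card) * X σ

/-- lines of `F` through `v` -/
def thr (pts : Λ → Finset V) (F : Finset Λ) (v : V) : Finset Λ := F.filter fun l => v ∈ pts l

/-- the normalised density of uncovered points -/
noncomputable def gphi (pts : Λ → Finset V) (q : ℕ) (F : Finset Λ) (Z : Finset V) (s : ℝ) : ℝ :=
  (∑ v ∈ Z, (1 - s) ^ (thr pts F v).card) / (q : ℝ) ^ 2

/-- the excess on the line `l` -/
noncomputable def gg (pts : Λ → Finset V) (q : ℕ) (F : Finset Λ) (Z : Finset V) (l : Λ) (s : ℝ) : ℝ :=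
  (∑ v ∈ pts l ∩ Z, (1 - s) ^ ((thr pts F v).card - 1)) / q - gphi pts q F Z s

end Vale.Agent.P045
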