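import Vale.Agent.P045.GRound

/-! # P045 GFam: Lemma G (abstract affine planes). -/

set_option linter.unusedSectionVars false

namespace Vale.Agent.P045

open Finset

variable {V Λ : Type} [Fintype V] [DecidableEq V] [Fintype Λ] [DecidableEq Λ]

/-- small sets of lines -/
def smallS (Λ : Type) [Fintype Λ] [DecidableEq Λ] (a : ℕ) : Finset (Finset Λ) :=
  (univ : Finset Λ).powerset.filter fun S => S.card ≤ a

theorem mem_smallS {a : ℕ} {S : Finset Λ} : S ∈ smallS Λ a ↔ S.card ≤ a := by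
  unfold smallS
  rw [mem_filter, mem_powerset]
  exact ⟨fun h => h.2, fun h => ⟨subset_univ _, h⟩⟩

theorem card_smallS (a : ℕ) : (smallS Λ a).card ≤ (Fintype.card Λ + 1) ^ a := by
  induction a with
  | zero =>
    have h1 : smallS Λ 0 ⊆ {∅} := by
      intro S hS
      rw [mem_smallS] at hS
      rw [mem_singleton, ← card_eq_zero]
      omega
    have := card_le_card h1
    simpa using this
  | succ a ih =>
    have h1 : smallS Λ (a + 1) ⊆ ((smallS Λ a) ×ˢ (univ : Finset (Option Λ))).image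
        (fun p => match p.2 with
          | none => p.1
          | some x => insert x p.1) := by
      intro S hS
      rw [mem_smallS] at hS
      rw [mem_image]
      by_cases hc : S.card ≤ a
      · exact ⟨(S, none), by rw [mem_product]; exact ⟨mem_smallS.2 hc, mem_univ _⟩, rfl⟩
      · have h2 : S.Nonempty := by
          rw [← card_pos]; omega
        obtain ⟨x, hx⟩ := h2
        refine ⟨(S.erase x, some x), ?_, insert_erase hx⟩
        rw [mem_product]
        refine ⟨mem_smallS.2 ?_, mem_univ _⟩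
        rw [card_erase_of_mem hx]
        omega
    calc (smallS Λ (a + 1)).card ≤ _ := card_le_card h1
      _ ≤ ((smallS Λ a) ×ˢ (univ : Finset (Option Λ))).card := card_image_le
      _ = (smallS Λ a).card * (Fintype.card Λ + 1) := by
          rw [card_product, card_univ, Fintype.card_option]
      _ ≤ (Fintype.card Λ + 1) ^ a * (Fintype.card Λ + 1) := Nat.mul_le_mul_right _ ih
      _ = _ := (pow_succ _ _).symm

/-- the family -/
noncomputable def gfam (pts : Λ → Finset V) (q : ℕ) (a : ℕ) (θ : ℝ) : ℕ → Finset (Finset Λ)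
  | 0 => {∅}
  | i + 1 => (gfam pts q a θ i).biUnion fun D => (smallS Λ a).biUnion fun S =>
      (atyp pts q θ (unc pts (D ∪ S))).powerset.image fun A => D ∪ S ∪ A

theorem mem_gfam_succ {pts : Λ → Finset V} {q a : ℕ} {θ : ℝ} {i : ℕ} {E : Finset Λ} :
    E ∈ gfam pts q a θ (i + 1) ↔ ∃ D ∈ gfam pts q a θ i, ∃ S : Finset Λ, S.card ≤ a ∧
      ∃ A ⊆ atyp pts q θ (unc pts (D ∪ S)), D ∪ S ∪ A = E := by
  rw [gfam]
  simp only [mem_biUnion, mem_image, mem_powerset, mem_smallS]

theorem card_gfam {q : ℕ} (hq : 1 ≤ q) {pts : Λ → Finset V} (h : AffPlane V Λ q pts)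
    {a : ℕ} {θ : ℝ} (hθ : 0 < θ) (i : ℕ) :
    ((gfam pts q a θ i).card : ℝ) ≤ (((smallS Λ a).card : ℝ) * (2:ℝ) ^ (q / θ ^ 2)) ^ i := by
  induction i with
  | zero => unfold gfam; simp
  | succ i ih =>
    have h1 : (gfam pts q a θ (i + 1)).card ≤ ∑ D ∈ gfam pts q a θ i, ∑ S ∈ smallS Λ a,
        2 ^ (atyp pts q θ (unc pts (D ∪ S))).card := by
      rw [gfam]
      refine card_biUnion_le.trans (sum_le_sum fun D _ => ?_)
      refine card_biUnion_le.trans (sum_le_sum fun S _ => ?_)
      refine card_image_le.trans ?_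
      rw [card_powerset]
    have h2 : ((gfam pts q a θ (i + 1)).card : ℝ) ≤ ∑ _D ∈ gfam pts q a θ i, ∑ _S ∈ smallS Λ a,
        (2:ℝ) ^ (q / θ ^ 2) := by
      calc ((gfam pts q a θ (i + 1)).card : ℝ) ≤ ((∑ D ∈ gfam pts q a θ i, ∑ S ∈ smallS Λ a,
        2 ^ (atyp pts q θ (unc pts (D ∪ S))).card : ℕ) : ℝ) := by exact_mod_cast h1
        _ = ∑ D ∈ gfam pts q a θ i, ∑ S ∈ smallS Λ a,
          (2:ℝ) ^ (atyp pts q θ (unc pts (D ∪ S))).card := by push_cast; rfl
        _ ≤ _ := by
          refine sum_le_sum fun D _ => sum_le_sum fun S _ => ?_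
          rw [← Real.rpow_natCast]
          exact Real.rpow_le_rpow_of_exponent_le (by norm_num) (atyp_card hq h hθ _)
    rw [sum_const, sum_const, nsmul_eq_mul, nsmul_eq_mul] at h2
    refine h2.trans ?_
    rw [pow_succ]
    exact mul_le_mul_of_nonneg_right ih (by positivity)

theorem card_mem_gfam {q : ℕ} (hq : 1 ≤ q) {pts : Λ → Finset V} (h : AffPlane V Λ q pts)
    {a : ℕ} {θ : ℝ} (hθ : 0 < θ) (i : ℕ) : ∀ D ∈ gfam pts q a θ i,
    (D.card : ℝ) ≤ i * (a + q / θ ^ 2) := by
  induction i with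
  | zero =>
    intro D hD
    unfold gfam at hD
    rw [mem_singleton] at hD
    rw [hD]; simp
  | succ i ih =>
    intro E hE
    rw [mem_gfam_succ] at hE
    obtain ⟨D, hD, S, hS, A, hA, rfl⟩ := hE
    have h1 := ih D hD
    have h2 : ((D ∪ S ∪ A).card : ℝ) ≤ D.card + S.card + A.card := by
      have := card_union_le (D ∪ S) A
      have := card_union_le D S
      have h3 : (D ∪ S ∪ A).card ≤ D.card + S.card + A.card := by omega
      exact_mod_cast h3
    have h3 : (A.card : ℝ) ≤ q / θ ^ 2 :=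
      (Nat.cast_le.2 (card_le_card hA)).trans (atyp_card hq h hθ _)
    have h4 : (S.card : ℝ) ≤ a := by exact_mod_cast hS
    push_cast
    linarith

/-- LEMMA G for abstract affine planes -/
theorem lemmaG_abs (C ζ γ : ℝ) (hC : 1 ≤ C) (hζ : 0 < ζ) (hγ : 0 < γ) :
    ∃ B : ℝ, 0 < B ∧ ∃ q₀ : ℕ, ∀ q : ℕ, q₀ ≤ q →
    ∀ (V Λ : Type) [Fintype V] [DecidableEq V] [Fintype Λ] [DecidableEq Λ]
      (pts : Λ → Finset V), AffPlane V Λ q pts → ∃ 𝓕 : Finset (Finset Λ),
      (𝓕.card : ℝ) ≤ (q : ℝ) ^ (γ * q) ∧ (∀ D ∈ 𝓕, (D.card : ℝ) ≤ B * q) ∧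
      ∀ T : Finset Λ, (T.card : ℝ) ≤ C * q → (∀ v, ∃ l ∈ T, v ∈ pts l) →
        ∃ D ∈ 𝓕, D ⊆ T ∧ ((unc pts D).card : ℝ) ≤ ζ * (q : ℝ) ^ 2 := by
  classical
  obtain ⟨κ, hκ, hround⟩ := round C ζ hC hζ
  obtain ⟨R, hR⟩ := exists_nat_gt (C / κ)
  have hC0 : 0 < C := by linarith
  have hR0 : (0:ℝ) < R := lt_trans (by positivity) hR
  obtain ⟨ε, hε⟩ : ∃ ε : ℝ, ε = min (1 / 2) (γ / (R * (12 * C + 1))) := ⟨_, rfl⟩
  have hε0 : 0 < ε := by rw [hε]; exact lt_min (by norm_num) (by positivity)
  have hε1 : ε < 1 := by rw [hε]; exact lt_of_le_of_lt (min_le_left _ _) (by norm_num)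
  have hεγ : ε * (R * (12 * C + 1)) ≤ γ := by
    have h1 : ε ≤ γ / (R * (12 * C + 1)) := by rw [hε]; exact min_le_right _ _
    rwa [le_div_iff₀ (by positivity)] at h1
  obtain ⟨θ, hθ, q₁, hq₁⟩ := hround ε hε0 hε1
  refine ⟨R * (4 * ε * C + 1 / θ ^ 2), by positivity, ?_⟩
  obtain ⟨q₀, hq₀⟩ : ∃ q₀ : ℕ, q₀ = q₁ + ⌈(2:ℝ) ^ (1 / (ε * θ ^ 2))⌉₊ + 2 := ⟨_, rfl⟩
  refine ⟨q₀, fun q hq V Λ _ _ _ _ pts h => ?_⟩
  have hq2 : 2 ≤ q := by omega
  have hq1 : 1 ≤ q := by omega
  have hqR : (0:ℝ) < q := by exact_mod_cast hq1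
  have hqR1 : (1:ℝ) ≤ q := by exact_mod_cast hq1
  have hqb : (2:ℝ) ^ (1 / (ε * θ ^ 2)) ≤ q := by
    refine (Nat.le_ceil _).trans ?_
    have : ⌈(2:ℝ) ^ (1 / (ε * θ ^ 2))⌉₊ ≤ q := by omega
    exact_mod_cast this
  obtain ⟨a, ha⟩ : ∃ a : ℕ, a = ⌊4 * ε * C * q⌋₊ := ⟨_, rfl⟩
  have ha1 : (a:ℝ) ≤ 4 * ε * C * q := by rw [ha]; exact Nat.floor_le (by positivity)
  refine ⟨gfam pts q a θ R, ?_, ?_, ?_⟩
  · refine (card_gfam hq1 h hθ R).trans ?_
    have h1 : ((smallS Λ a).card : ℝ) ≤ (q:ℝ) ^ (12 * ε * C * q) := by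
      have h2 : (smallS Λ a).card ≤ (q ^ 3) ^ a := by
        refine (card_smallS a).trans (Nat.pow_le_pow_left ?_ a)
        rw [h.card_L]
        have h3 : q ^ 3 = q * q * q := by ring
        have h4 : q ^ 2 = q * q := by ring
        rw [h3, h4]
        nlinarith [Nat.mul_le_mul hq2 hq2]
      calc ((smallS Λ a).card : ℝ) ≤ (((q ^ 3) ^ a : ℕ) : ℝ) := by exact_mod_cast h2
        _ = (q:ℝ) ^ ((3:ℝ) * a) := by
            push_cast
            rw [← pow_mul, ← Real.rpow_natCast]
            push_cast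
            rfl
        _ ≤ (q:ℝ) ^ (12 * ε * C * q) := by
            apply Real.rpow_le_rpow_of_exponent_le hqR1
            linarith
    have h2 : (2:ℝ) ^ (q / θ ^ 2) ≤ (q:ℝ) ^ (ε * q) := by
      calc (2:ℝ) ^ (q / θ ^ 2) = ((2:ℝ) ^ (1 / (ε * θ ^ 2))) ^ (ε * q) := by
            rw [← Real.rpow_mul (by norm_num)]
            congr 1
            field_simp
        _ ≤ (q:ℝ) ^ (ε * q) := Real.rpow_le_rpow (by positivity) hqb (by positivity)
    calc (((smallS Λ a).card : ℝ) * (2:ℝ) ^ (q / θ ^ 2)) ^ R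
        ≤ ((q:ℝ) ^ (12 * ε * C * q) * (q:ℝ) ^ (ε * q)) ^ R :=
          pow_le_pow_left₀ (by positivity) (mul_le_mul h1 h2 (by positivity) (by positivity)) R
      _ = (q:ℝ) ^ ((12 * ε * C * q + ε * q) * R) := by
          rw [← Real.rpow_add hqR, ← Real.rpow_natCast, ← Real.rpow_mul hqR.le]
      _ ≤ (q:ℝ) ^ (γ * q) := by
          apply Real.rpow_le_rpow_of_exponent_le hqR1
          have h3 := mul_le_mul_of_nonneg_right hεγ hqR.le
          calc (12 * ε * C * q + ε * q) * R = ε * (R * (12 * C + 1)) * q := by ring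
            _ ≤ γ * q := h3
  · intro D hD
    refine (card_mem_gfam hq1 h hθ R D hD).trans ?_
    have h1 : (a:ℝ) + q / θ ^ 2 ≤ (4 * ε * C + 1 / θ ^ 2) * q := by
      have : (q:ℝ) / θ ^ 2 = 1 / θ ^ 2 * q := by ring
      rw [this]
      linarith
    calc (R:ℝ) * (a + q / θ ^ 2) ≤ R * ((4 * ε * C + 1 / θ ^ 2) * q) :=
          mul_le_mul_of_nonneg_left h1 hR0.le
      _ = _ := by ring
  · intro T hT hcov
    have key : ∀ i : ℕ, ∃ D ∈ gfam pts q a θ i, D ⊆ T ∧
        (((unc pts D).card : ℝ) ≤ ζ * (q : ℝ) ^ 2 ∨ i * κ * q ≤ D.card) := by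
      intro i
      induction i with
      | zero =>
        refine ⟨∅, by unfold gfam; exact mem_singleton_self _, empty_subset _, Or.inr (by simp)⟩
      | succ i ih =>
        obtain ⟨D, hD, hDT, hor⟩ := ih
        by_cases hs : ((unc pts D).card : ℝ) ≤ ζ * (q : ℝ) ^ 2
        · refine ⟨D, ?_, hDT, Or.inl hs⟩
          rw [mem_gfam_succ]
          exact ⟨D, hD, ∅, by simp, ∅, empty_subset _, by simp⟩
        · have hDc : i * κ * q ≤ D.card := hor.resolve_left hs
          push Not at hs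
          have hFc : ((T \ D).card : ℝ) ≤ C * q :=
            (Nat.cast_le.2 (card_le_card sdiff_subset)).trans hT
          obtain ⟨σ, hσF, hσc, hσB⟩ := hq₁ q (by omega) V Λ pts h (T \ D) (unc pts D) hFc
            (fun v hv => by
              obtain ⟨l, hl, hvl⟩ := hcov v
              refine ⟨l, ?_, hvl⟩
              rw [mem_sdiff]
              refine ⟨hl, fun hlD => ?_⟩
              unfold unc at hv
              rw [mem_filter] at hv
              exact hv.2 l hlD hvl) hs.le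
          have hZσ : (unc pts D).filter (fun v => ∀ l' ∈ σ, v ∉ pts l') = unc pts (D ∪ σ) := by
            ext v
            unfold unc
            simp only [mem_filter, mem_univ, true_and, mem_union]
            constructor
            · rintro ⟨h1, h2⟩ l (hl | hl)
              · exact h1 l hl
              · exact h2 l hl
            · intro h1
              exact ⟨fun l hl => h1 l (Or.inl hl), fun l hl => h1 l (Or.inr hl)⟩
          rw [hZσ] at hσB
          obtain ⟨A, hA⟩ : ∃ A : Finset Λ, A = (T \ D) ∩ atyp pts q θ (unc pts (D ∪ σ)) := ⟨_, rfl⟩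
          obtain ⟨G, hG⟩ : ∃ G : Finset Λ, G = (T \ D).filter fun l => l ∈ σ ∨
            l ∈ atyp pts q θ (unc pts (D ∪ σ)) := ⟨_, rfl⟩
          rw [← hG] at hσB
          refine ⟨D ∪ σ ∪ A, ?_, ?_, Or.inr ?_⟩
          · rw [mem_gfam_succ]
            refine ⟨D, hD, σ, ?_, A, by rw [hA]; exact inter_subset_right, rfl⟩
            rw [ha]
            exact Nat.le_floor hσc
          · refine union_subset (union_subset hDT (hσF.trans sdiff_subset)) ?_
            rw [hA]
            exact inter_subset_left.trans sdiff_subset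
          · have h1 : D ∪ G ⊆ D ∪ σ ∪ A := by
              intro l hl
              rw [mem_union] at hl
              rw [mem_union, mem_union]
              rcases hl with hl | hl
              · exact Or.inl (Or.inl hl)
              · rw [hG, mem_filter] at hl
                rcases hl.2 with h2 | h2
                · exact Or.inl (Or.inr h2)
                · right
                  rw [hA, mem_inter]
                  exact ⟨hl.1, h2⟩
            have h2 : Disjoint D G := by
              rw [disjoint_left]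
              intro l hl hlG
              rw [hG, mem_filter, mem_sdiff] at hlG
              exact hlG.1.2 hl
            have h3 := card_le_card h1
            rw [card_union_of_disjoint h2] at h3
            have h4 : (D.card : ℝ) + G.card ≤ (D ∪ σ ∪ A).card := by exact_mod_cast h3
            push_cast
            linarith
    obtain ⟨D, hD, hDT, hor⟩ := key R
    refine ⟨D, hD, hDT, ?_⟩
    rcases hor with h1 | h1
    · exact h1
    · exfalso
      have h2 : (D.card : ℝ) ≤ C * q := (Nat.cast_le.2 (card_le_card hDT)).trans hT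
      have h3 : C < R * κ := by rwa [div_lt_iff₀ hκ] at hR
      have h4 := mul_lt_mul_of_pos_right h3 hqR
      linarith

end Vale.Agent.P045
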