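import Vale.Agent.P045.GCapt
import Vale.Agent.P045.AC2

/-! # P045 GGron: the differential inequality (many lines have large excess), and the excess as a
power series. -/

set_option linter.unusedSectionVars false

namespace Vale.Agent.P045

open Finset

variable {V Λ : Type} [Fintype V] [DecidableEq V] [Fintype Λ] [DecidableEq Λ]

theorem sum_thr_card {q : ℕ} {pts : Λ → Finset V} (h : AffPlane V Λ q pts) (F : Finset Λ)
    (Z : Finset V) (f : V → ℝ) :
    ∑ l ∈ F, ∑ v ∈ pts l ∩ Z, f v = ∑ v ∈ Z, (thr pts F v).card * f v := by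
  have h1 : ∀ l ∈ F, ∑ v ∈ pts l ∩ Z, f v = ∑ v ∈ Z, if v ∈ pts l then f v else 0 := by
    intro l _
    rw [inter_comm, ← filter_mem_eq_inter, sum_filter]
  rw [sum_congr rfl h1, sum_comm]
  refine sum_congr rfl fun v _ => ?_
  rw [← sum_filter, sum_const, nsmul_eq_mul]
  rfl

theorem gphi_zero {q : ℕ} {pts : Λ → Finset V} (F : Finset Λ) (Z : Finset V) :
    gphi pts q F Z 0 = Z.card / (q:ℝ) ^ 2 := by
  unfold gphi
  simp

theorem gphi_one {q : ℕ} {pts : Λ → Finset V} (F : Finset Λ) (Z : Finset V)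
    (hZ : ∀ v ∈ Z, ∃ l ∈ F, v ∈ pts l) : gphi pts q F Z 1 = 0 := by
  unfold gphi
  rw [sum_eq_zero, zero_div]
  intro v hv
  obtain ⟨l, hl, hvl⟩ := hZ v hv
  rw [sub_self, zero_pow]
  exact (card_pos.2 ⟨l, mem_thr.2 ⟨hl, hvl⟩⟩).ne'

theorem gphi_nonneg {q : ℕ} {pts : Λ → Finset V} (F : Finset Λ) (Z : Finset V) {s : ℝ}
    (h1 : s ≤ 1) : 0 ≤ gphi pts q F Z s := by
  unfold gphi
  apply div_nonneg _ (by positivity)
  exact sum_nonneg fun v _ => pow_nonneg (by linarith) _

theorem gphi_deriv {q : ℕ} (hq : 1 ≤ q) {pts : Λ → Finset V} (h : AffPlane V Λ q pts)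
    (F : Finset Λ) (Z : Finset V) (s : ℝ) :
    HasDerivAt (gphi pts q F Z)
      (-((∑ l ∈ F, gg pts q F Z l s) / q + F.card / q * gphi pts q F Z s)) s := by
  have hq0 : (0:ℝ) < q := by exact_mod_cast hq
  have h1 : HasDerivAt (gphi pts q F Z)
      ((∑ v ∈ Z, ((thr pts F v).card : ℝ) * (1 - s) ^ ((thr pts F v).card - 1) * (-1)) /
        (q:ℝ) ^ 2) s := by
    unfold gphi
    apply HasDerivAt.div_const
    apply HasDerivAt.fun_sum
    intro v _
    have h2 : HasDerivAt (fun s : ℝ => 1 - s) (-1) s := by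
      simpa using (hasDerivAt_id s).const_sub 1
    exact h2.pow (thr pts F v).card
  convert h1 using 1
  have h3 : ∑ l ∈ F, gg pts q F Z l s =
      (∑ v ∈ Z, ((thr pts F v).card : ℝ) * (1 - s) ^ ((thr pts F v).card - 1)) / q
        - F.card * gphi pts q F Z s := by
    unfold gg
    rw [sum_sub_distrib, ← sum_div, sum_thr_card h F Z, sum_const, nsmul_eq_mul]
  rw [h3]
  have h4 : ∑ v ∈ Z, ((thr pts F v).card : ℝ) * (1 - s) ^ ((thr pts F v).card - 1) * (-1) =
      -(∑ v ∈ Z, ((thr pts F v).card : ℝ) * (1 - s) ^ ((thr pts F v).card - 1)) := by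
    rw [← sum_mul]; ring
  rw [h4]
  field_simp
  ring

theorem gron {q : ℕ} (hq : 1 ≤ q) {pts : Λ → Finset V} (h : AffPlane V Λ q pts) {C K ζ : ℝ}
    (hC : 0 ≤ C) (hK : 0 ≤ K) (F : Finset Λ) (hF : (F.card : ℝ) ≤ C * q) (Z : Finset V)
    (hZ : ∀ v ∈ Z, ∃ l ∈ F, v ∈ pts l) (hZc : ζ * (q:ℝ) ^ 2 ≤ Z.card)
    (hg : ∀ s, 0 ≤ s → s ≤ 1 → ∑ l ∈ F, gg pts q F Z l s ≤ K * q) : ζ ≤ K * Real.exp C := by
  have hq0 : (0:ℝ) < q := by exact_mod_cast hq
  obtain ⟨ψ, hψ⟩ : ∃ ψ : ℝ → ℝ, ψ = fun s => Real.exp (C * s) * gphi pts q F Z s +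
    K * Real.exp C * s := ⟨_, rfl⟩
  have hd : ∀ s, HasDerivAt ψ (C * Real.exp (C * s) * gphi pts q F Z s +
      Real.exp (C * s) * (-((∑ l ∈ F, gg pts q F Z l s) / q + F.card / q * gphi pts q F Z s)) +
      K * Real.exp C) s := by
    intro s
    rw [hψ]
    have h1 : HasDerivAt (fun s : ℝ => Real.exp (C * s)) (C * Real.exp (C * s)) s := by
      have h2 : HasDerivAt (fun s : ℝ => C * s) C s := by
        simpa using (hasDerivAt_id s).const_mul C
      have := h2.exp
      rwa [mul_comm] at this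
    have h3 : HasDerivAt (fun s : ℝ => K * Real.exp C * s) (K * Real.exp C) s := by
      simpa using (hasDerivAt_id s).const_mul (K * Real.exp C)
    exact (h1.mul (gphi_deriv hq h F Z s)).add h3
  have hmono : MonotoneOn ψ (Set.Icc 0 1) := by
    refine monotoneOn_of_deriv_nonneg (convex_Icc 0 1)
      (fun s _ => (hd s).continuousAt.continuousWithinAt)
      (fun s _ => (hd s).differentiableAt.differentiableWithinAt) ?_
    intro s hs
    rw [interior_Icc] at hs
    rw [(hd s).deriv]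
    have h1 := hg s hs.1.le hs.2.le
    have h2 := gphi_nonneg (pts := pts) (q := q) F Z hs.2.le
    have h3 : (∑ l ∈ F, gg pts q F Z l s) / q ≤ K := by
      rw [div_le_iff₀ hq0]; exact h1
    have h4 : (F.card : ℝ) / q ≤ C := by
      rw [div_le_iff₀ hq0]; exact hF
    have h5 := mul_le_mul_of_nonneg_right h4 h2
    have h6 : Real.exp (C * s) ≤ Real.exp C := by
      apply Real.exp_le_exp.2
      nlinarith [hs.2]
    have h7 := Real.exp_pos (C * s)
    have h8 := mul_le_mul_of_nonneg_left h6 hK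
    have h9 : Real.exp (C * s) * ((∑ l ∈ F, gg pts q F Z l s) / q + F.card / q * gphi pts q F Z s) ≤
        Real.exp (C * s) * (K + C * gphi pts q F Z s) :=
      mul_le_mul_of_nonneg_left (by linarith) h7.le
    linarith
  have h1 := hmono (Set.left_mem_Icc.2 zero_le_one) (Set.right_mem_Icc.2 zero_le_one) zero_le_one
  rw [hψ] at h1
  simp only [mul_zero, Real.exp_zero, one_mul, mul_one, add_zero] at h1
  rw [gphi_zero, gphi_one F Z hZ, mul_zero, zero_add] at h1
  refine le_trans ?_ h1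
  rw [le_div_iff₀ (by positivity)]
  exact hZc

theorem gg_le_one {q : ℕ} (hq : 1 ≤ q) {pts : Λ → Finset V} (h : AffPlane V Λ q pts)
    (F : Finset Λ) (Z : Finset V) (l : Λ) {s : ℝ} (h0 : 0 ≤ s) (h1 : s ≤ 1) :
    gg pts q F Z l s ≤ (pts l ∩ Z).card / q - gphi pts q F Z s := by
  unfold gg
  have hq0 : (0:ℝ) < q := by exact_mod_cast hq
  have h2 : ∑ v ∈ pts l ∩ Z, (1 - s) ^ ((thr pts F v).card - 1) ≤ (pts l ∩ Z).card := by
    calc ∑ v ∈ pts l ∩ Z, (1 - s) ^ ((thr pts F v).card - 1) ≤ ∑ _v ∈ pts l ∩ Z, (1:ℝ) :=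
          sum_le_sum fun v _ => pow_le_one₀ (by linarith) (by linarith)
      _ = _ := by rw [sum_const, nsmul_eq_mul, mul_one]
  have h3 := div_le_div_of_nonneg_right h2 hq0.le
  linarith

theorem inter_card_le {q : ℕ} {pts : Λ → Finset V} (h : AffPlane V Λ q pts)
    (Z : Finset V) (l : Λ) : ((pts l ∩ Z).card : ℝ) ≤ q := by
  have h3 := card_le_card (inter_subset_left (s₁ := pts l) (s₂ := Z))
  rw [h.card_pts] at h3
  exact_mod_cast h3

/-- many lines have large excess at some `s` -/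
theorem many_bad {q : ℕ} (hq : 1 ≤ q) {pts : Λ → Finset V} (h : AffPlane V Λ q pts)
    {C ζ ξ κ : ℝ} (hC : 0 ≤ C) (hξ : 0 ≤ ξ) (hκ : 0 ≤ κ) (hsmall : (C * ξ + κ) * Real.exp C < ζ)
    (F : Finset Λ) (hF : (F.card : ℝ) ≤ C * q) (Z : Finset V)
    (hZ : ∀ v ∈ Z, ∃ l ∈ F, v ∈ pts l) (hZc : ζ * (q:ℝ) ^ 2 ≤ Z.card) (B : Finset Λ) (hBF : B ⊆ F)
    (hB : ∀ l ∈ F, (∃ s, 0 ≤ s ∧ s ≤ 1 ∧ ξ < gg pts q F Z l s) → l ∈ B) : κ * q ≤ B.card := by
  by_contra hcon
  push Not at hcon
  have hq0 : (0:ℝ) < q := by exact_mod_cast hq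
  have h1 := gron hq h hC (K := C * ξ + κ) (by positivity) F hF Z hZ hZc ?_
  · linarith
  intro s h0 h1
  rw [← sum_sdiff hBF]
  have h2 : ∑ l ∈ F \ B, gg pts q F Z l s ≤ ∑ _l ∈ F \ B, ξ := by
    refine sum_le_sum fun l hl => ?_
    rw [mem_sdiff] at hl
    by_contra hlt
    push Not at hlt
    exact hl.2 (hB l hl.1 ⟨s, h0, h1, hlt⟩)
  have h3 : ∑ l ∈ B, gg pts q F Z l s ≤ ∑ _l ∈ B, (1:ℝ) := by
    refine sum_le_sum fun l _ => ?_
    refine (gg_le_one hq h F Z l h0 h1).trans ?_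
    have h4 := gphi_nonneg (pts := pts) (q := q) F Z h1
    have h5 : ((pts l ∩ Z).card : ℝ) / q ≤ 1 := by
      rw [div_le_one hq0]; exact inter_card_le h Z l
    linarith
  rw [sum_const, nsmul_eq_mul] at h2 h3
  rw [mul_one] at h3
  have h6 : ((F \ B).card : ℝ) ≤ C * q := by
    refine le_trans ?_ hF
    exact_mod_cast card_le_card sdiff_subset
  have h7 := mul_le_mul_of_nonneg_right h6 hξ
  nlinarith

/-- excess for small `s` -/
theorem gg_small {q : ℕ} (hq : 1 ≤ q) {pts : Λ → Finset V} (h : AffPlane V Λ q pts)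
    {C : ℝ} (F : Finset Λ) (hF : (F.card : ℝ) ≤ C * q) (Z : Finset V) (l : Λ) {s : ℝ}
    (h0 : 0 ≤ s) (h1 : s ≤ 1) :
    gg pts q F Z l s ≤ ((pts l ∩ Z).card / q - Z.card / (q:ℝ) ^ 2) + s * C := by
  have hq0 : (0:ℝ) < q := by exact_mod_cast hq
  refine (gg_le_one hq h F Z l h0 h1).trans ?_
  have h2 : Z.card / (q:ℝ) ^ 2 - s * C ≤ gphi pts q F Z s := by
    unfold gphi
    have h3 : ∑ v ∈ Z, (1 - s * (thr pts F v).card) ≤ ∑ v ∈ Z, (1 - s) ^ (thr pts F v).card := by
      refine sum_le_sum fun v _ => ?_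
      have := one_add_mul_le_pow (a := -s) (by linarith) (thr pts F v).card
      have e : (1:ℝ) + -s = 1 - s := by ring
      rw [e] at this
      linarith
    have h4 : ∑ v ∈ Z, ((thr pts F v).card : ℝ) ≤ C * q * q := by
      have h5 := sum_thr_card h F Z (fun _ => (1:ℝ))
      simp only [mul_one] at h5
      rw [← h5]
      calc ∑ l ∈ F, ∑ v ∈ pts l ∩ Z, (1:ℝ) ≤ ∑ _l ∈ F, (q:ℝ) := by
            refine sum_le_sum fun l _ => ?_
            rw [sum_const, nsmul_eq_mul, mul_one]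
            exact inter_card_le h Z l
        _ = F.card * q := by rw [sum_const, nsmul_eq_mul]
        _ ≤ C * q * q := mul_le_mul_of_nonneg_right hF hq0.le
    rw [sum_sub_distrib, sum_const, nsmul_eq_mul, mul_one, ← mul_sum] at h3
    have h6 : (Z.card - s * (C * q * q)) / (q:ℝ) ^ 2 ≤
        (∑ v ∈ Z, (1 - s) ^ (thr pts F v).card) / (q:ℝ) ^ 2 := by
      apply div_le_div_of_nonneg_right _ (by positivity)
      have := mul_le_mul_of_nonneg_left h4 h0
      linarith
    have h7 : (Z.card - s * (C * q * q)) / (q:ℝ) ^ 2 = Z.card / (q:ℝ) ^ 2 - s * C := by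
      field_simp
    rwa [h7] at h6
  linarith

/-- coefficient sequence of the excess -/
noncomputable def gcf (pts : Λ → Finset V) (q : ℕ) (F : Finset Λ) (Z : Finset V) (l : Λ) (k : ℕ) : ℝ :=
  (((pts l ∩ Z).filter fun v => (thr pts F v).card - 1 = k).card : ℝ) / q -
    ((Z.filter fun v => (thr pts F v).card = k).card : ℝ) / (q:ℝ) ^ 2

theorem gcf_le {q : ℕ} (hq : 1 ≤ q) {pts : Λ → Finset V} (h : AffPlane V Λ q pts)
    (F : Finset Λ) (Z : Finset V) (l : Λ) (k : ℕ) : |gcf pts q F Z l k| ≤ 1 := by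
  have hq0 : (0:ℝ) < q := by exact_mod_cast hq
  unfold gcf
  have h1 : (((pts l ∩ Z).filter fun v => (thr pts F v).card - 1 = k).card : ℝ) / q ≤ 1 := by
    rw [div_le_one hq0]
    refine le_trans ?_ (inter_card_le h Z l)
    exact_mod_cast card_filter_le _ _
  have h2 : ((Z.filter fun v => (thr pts F v).card = k).card : ℝ) / (q:ℝ) ^ 2 ≤ 1 := by
    rw [div_le_one (by positivity)]
    have h3 := card_le_univ (Z.filter fun v => (thr pts F v).card = k)
    rw [h.card_V] at h3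
    exact_mod_cast h3
  have h3 : 0 ≤ (((pts l ∩ Z).filter fun v => (thr pts F v).card - 1 = k).card : ℝ) / q := by
    positivity
  have h4 : 0 ≤ ((Z.filter fun v => (thr pts F v).card = k).card : ℝ) / (q:ℝ) ^ 2 := by positivity
  rw [abs_le]
  constructor <;> linarith

private theorem sum_range_fiber (A : Finset V) (m : V → ℕ) (N : ℕ) (hm : ∀ v ∈ A, m v < N) (t : ℝ) :
    ∑ k ∈ range N, ((A.filter fun v => m v = k).card : ℝ) * t ^ k = ∑ v ∈ A, t ^ m v := by
  rw [← sum_fiberwise_of_maps_to (g := m) (t := range N) (fun v hv => mem_range.2 (hm v hv))]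
  refine sum_congr rfl fun k _ => ?_
  rw [sum_congr rfl (fun v hv => by rw [(mem_filter.1 hv).2] :
    ∀ v ∈ A.filter (fun v => m v = k), t ^ m v = t ^ k), sum_const, nsmul_eq_mul]

theorem acF_gcf {q : ℕ} {pts : Λ → Finset V} (F : Finset Λ) (Z : Finset V) (l : Λ) (s : ℝ) :
    acF (gcf pts q F Z l) (1 - s) = gg pts q F Z l s := by
  have hle : ∀ v, (thr pts F v).card ≤ F.card := fun v => card_filter_le _ _
  unfold acF
  rw [tsum_eq_sum (s := range (F.card + 1))]
  · unfold gcf gg gphi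
    have h1 := sum_range_fiber (pts l ∩ Z) (fun v => (thr pts F v).card - 1) (F.card + 1)
      (fun v _ => by have := hle v; omega) (1 - s)
    have h2 := sum_range_fiber Z (fun v => (thr pts F v).card) (F.card + 1)
      (fun v _ => by have := hle v; omega) (1 - s)
    rw [← h1, ← h2, sum_div, sum_div, ← sum_sub_distrib]
    refine sum_congr rfl fun k _ => ?_
    ring
  · intro k hk
    rw [mem_range, not_lt] at hk
    have h1 : ((pts l ∩ Z).filter fun v => (thr pts F v).card - 1 = k) = ∅ := by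
      rw [filter_eq_empty_iff]
      intro v _ hv
      have := hle v
      omega
    have h2 : (Z.filter fun v => (thr pts F v).card = k) = ∅ := by
      rw [filter_eq_empty_iff]
      intro v _ hv
      have := hle v
      omega
    unfold gcf
    rw [h1, h2]
    simp

end Vale.Agent.P045
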