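import Vale.Agent.P045.GGron
import Vale.Agent.P045.GAtyp

/-! # P045 GRound: one round of Lemma G. -/

set_option linter.unusedSectionVars false

namespace Vale.Agent.P045

open Finset

theorem atyp_mono {V Λ : Type} [Fintype V] [DecidableEq V] [Fintype Λ] [DecidableEq Λ]
    {pts : Λ → Finset V} {q : ℕ} {θ θ' : ℝ} (h : θ ≤ θ') (U : Finset V) :
    atyp pts q θ' U ⊆ atyp pts q θ U := by
  intro l hl
  unfold atyp at *
  rw [mem_filter] at *
  exact ⟨hl.1, lt_of_le_of_lt h hl.2⟩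

theorem round (C ζ : ℝ) (hC : 1 ≤ C) (hζ : 0 < ζ) : ∃ κ : ℝ, 0 < κ ∧ ∀ ε : ℝ, 0 < ε → ε < 1 →
    ∃ θ : ℝ, 0 < θ ∧ ∃ q₀ : ℕ, ∀ q : ℕ, q₀ ≤ q →
    ∀ (V Λ : Type) [Fintype V] [DecidableEq V] [Fintype Λ] [DecidableEq Λ]
      (pts : Λ → Finset V), AffPlane V Λ q pts →
    ∀ (F : Finset Λ) (Z : Finset V), (F.card : ℝ) ≤ C * q → (∀ v ∈ Z, ∃ l ∈ F, v ∈ pts l) →
      ζ * (q:ℝ) ^ 2 ≤ Z.card →
      ∃ σ ⊆ F, (σ.card : ℝ) ≤ 4 * ε * C * q ∧ κ * q ≤
        ((F.filter fun l => l ∈ σ ∨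
          l ∈ atyp pts q θ (Z.filter fun v => ∀ l' ∈ σ, v ∉ pts l')).card : ℝ) := by
  classical
  have hC0 : 0 < C := by linarith
  obtain ⟨κ₀, hκ₀⟩ : ∃ κ₀ : ℝ, κ₀ = ζ * Real.exp (-C) / 4 := ⟨_, rfl⟩
  obtain ⟨ξ, hξ⟩ : ∃ ξ : ℝ, ξ = κ₀ / C := ⟨_, rfl⟩
  have hκ₀0 : 0 < κ₀ := by rw [hκ₀]; positivity
  have hξ0 : 0 < ξ := by rw [hξ]; positivity
  have hsmall : (C * ξ + κ₀) * Real.exp C < ζ := by
    have h1 : C * ξ = κ₀ := by rw [hξ]; field_simp
    rw [h1, hκ₀]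
    have h2 : Real.exp (-C) * Real.exp C = 1 := by rw [← Real.exp_add]; simp
    have h3 : (ζ * Real.exp (-C) / 4 + ζ * Real.exp (-C) / 4) * Real.exp C = ζ / 2 := by
      calc (ζ * Real.exp (-C) / 4 + ζ * Real.exp (-C) / 4) * Real.exp C =
          ζ / 2 * (Real.exp (-C) * Real.exp C) := by ring
        _ = ζ / 2 := by rw [h2, mul_one]
    rw [h3]; linarith
  refine ⟨κ₀ / 8, by positivity, fun ε hε hε1 => ?_⟩
  obtain ⟨δ, hδ⟩ : ∃ δ : ℝ, δ = ξ / (2 * C) := ⟨_, rfl⟩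
  have hδ0 : 0 < δ := by rw [hδ]; positivity
  obtain ⟨η, hη, hac⟩ := ac_measure δ ξ ε hδ0 hξ0 hε hε1
  refine ⟨min (ξ / 2) (η / 2), lt_min (by positivity) (by positivity), ?_⟩
  obtain ⟨q₀, hq₀⟩ : ∃ q₀ : ℕ, q₀ = ⌈64 * (1 + C) / η ^ 2⌉₊ + ⌈2 / (ε * C)⌉₊ + 1 := ⟨_, rfl⟩
  refine ⟨q₀, fun q hq V Λ _ _ _ _ pts h F Z hF hZ hZc => ?_⟩
  have hq1 : 1 ≤ q := by omega
  have hqR : (0:ℝ) < q := by exact_mod_cast hq1
  have hqa : 64 * (1 + C) / η ^ 2 ≤ q := by
    refine (Nat.le_ceil _).trans ?_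
    have : ⌈64 * (1 + C) / η ^ 2⌉₊ ≤ q := by omega
    exact_mod_cast this
  have hqb : 2 / (ε * C) ≤ q := by
    refine (Nat.le_ceil _).trans ?_
    have : ⌈2 / (ε * C)⌉₊ ≤ q := by omega
    exact_mod_cast this
  obtain ⟨B0, hB0⟩ : ∃ B0 : Finset Λ, B0 = F.filter (fun l => ∃ s, 0 ≤ s ∧ s ≤ 1 ∧
    ξ < gg pts q F Z l s) := ⟨_, rfl⟩
  have hB0c : κ₀ * q ≤ B0.card := by
    refine many_bad hq1 h hC0.le hξ0.le hκ₀0.le hsmall F hF Z hZ hZc B0 ?_ ?_
    · rw [hB0]; exact filter_subset _ _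
    · intro l hl hs
      rw [hB0, mem_filter]
      exact ⟨hl, hs⟩
  obtain ⟨B1, hB1⟩ : ∃ B1 : Finset Λ, B1 = B0.filter (fun l =>
    ξ / 2 < ((pts l ∩ Z).card : ℝ) / q - Z.card / (q:ℝ) ^ 2) := ⟨_, rfl⟩
  have hB1B0 : B1 ⊆ B0 := by rw [hB1]; exact filter_subset _ _
  have hB0F : B0 ⊆ F := by rw [hB0]; exact filter_subset _ _
  by_cases hcase : κ₀ * q / 2 ≤ B1.card
  · refine ⟨∅, empty_subset _, by simp; positivity, ?_⟩
    have h1 : B1 ⊆ F.filter (fun l => l ∈ (∅ : Finset Λ) ∨ l ∈ atyp pts q (min (ξ / 2) (η / 2))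
        (Z.filter fun v => ∀ l' ∈ (∅ : Finset Λ), v ∉ pts l')) := by
      intro l hl
      rw [mem_filter]
      refine ⟨hB0F (hB1B0 hl), Or.inr ?_⟩
      have h2 : (Z.filter fun v => ∀ l' ∈ (∅ : Finset Λ), v ∉ pts l') = Z := by
        rw [filter_eq_self]
        intro v _ l' hl'
        exact absurd hl' (notMem_empty l')
      rw [h2]
      unfold atyp
      rw [mem_filter]
      refine ⟨mem_univ _, ?_⟩
      rw [hB1, mem_filter] at hl
      exact lt_of_le_of_lt (min_le_left _ _) (lt_of_lt_of_le hl.2 (le_abs_self _))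
    refine le_trans ?_ (Nat.cast_le.2 (card_le_card h1))
    linarith [mul_pos hκ₀0 hqR]
  · push Not at hcase
    obtain ⟨B2, hB2⟩ : ∃ B2 : Finset Λ, B2 = B0 \ B1 := ⟨_, rfl⟩
    have hB2c : κ₀ * q / 2 ≤ B2.card := by
      have h1 := card_sdiff_add_card_eq_card hB1B0
      rw [← hB2] at h1
      have h2 : (B2.card : ℝ) + B1.card = B0.card := by exact_mod_cast h1
      linarith
    have hB2F : B2 ⊆ F := by
      rw [hB2]; exact sdiff_subset.trans hB0F
    have hvol : ∀ l ∈ B2, ENNReal.ofReal (ε / 2) ≤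
        MeasureTheory.volume {s | s ∈ Set.Icc (ε / 8) ε ∧ η < |acF (gcf pts q F Z l) (1 - s)|} := by
      intro l hl
      rw [hB2, mem_sdiff] at hl
      obtain ⟨hl0, hl1⟩ := hl
      have hl0' := hl0
      rw [hB0, mem_filter] at hl0'
      obtain ⟨_, s, h0, h1, hgs⟩ := hl0'
      have h2 : ((pts l ∩ Z).card : ℝ) / q - Z.card / (q:ℝ) ^ 2 ≤ ξ / 2 := by
        by_contra hlt
        push Not at hlt
        apply hl1
        rw [hB1, mem_filter]
        exact ⟨hl0, hlt⟩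
      have h3 := gg_small hq1 h F hF Z l h0 h1
      have h4 : δ ≤ s := by
        rw [hδ, div_le_iff₀ (by positivity)]
        nlinarith
      refine hac (gcf pts q F Z l) (gcf_le hq1 h F Z l) (1 - s) (by linarith) (by linarith) ?_
      rw [acF_gcf]
      exact hgs.le.trans (le_abs_self _)
    obtain ⟨s, hs0, hs1, hsB⟩ := ac_avg B2 (fun l => gcf pts q F Z l)
      (fun l _ k => gcf_le hq1 h F Z l k) hε hε1 hvol
    obtain ⟨B3, hB3⟩ : ∃ B3 : Finset Λ, B3 = B2.filter (fun l =>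
      η < |acF (gcf pts q F Z l) (1 - s)|) := ⟨_, rfl⟩
    have hB3c : κ₀ * q / 4 ≤ B3.card := by
      have h1 : (B2.card : ℝ) / 2 ≤ B3.card := by
        rw [hB3]
        convert hsB using 3
      linarith
    have hB3F : B3 ⊆ F := by
      rw [hB3]; exact (filter_subset _ _).trans hB2F
    have hbig : 16 * (1 + C) / (η ^ 2 * q) ≤ 1 / 4 := by
      rw [div_le_iff₀ (by positivity)]
      rw [div_le_iff₀ (by positivity)] at hqa
      linarith
    have hseed : (1 + s) ^ F.card ≤ (2:ℝ) ^ (4 * ε * C * q) / 4 := by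
      have h1 : (1 + s) ^ F.card ≤ Real.exp (ε * C * q) := by
        calc (1 + s) ^ F.card ≤ (Real.exp s) ^ F.card :=
              pow_le_pow_left₀ (by linarith) (by linarith [Real.add_one_le_exp s]) _
          _ = Real.exp (F.card * s) := by rw [← Real.exp_nat_mul]
          _ ≤ Real.exp (ε * C * q) := by
              apply Real.exp_le_exp.2
              calc (F.card : ℝ) * s ≤ (C * q) * ε := mul_le_mul hF hs1 hs0.le (by positivity)
                _ = ε * C * q := by ring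
      have h2 : (2:ℝ) ^ (4 * ε * C * q) = Real.exp (Real.log 2 * (4 * ε * C * q)) :=
        Real.rpow_def_of_pos (by norm_num) _
      have h3 : 2 ≤ ε * C * q := by
        rw [div_le_iff₀ (by positivity)] at hqb
        linarith
      have h4 : Real.exp 2 * Real.exp (ε * C * q) ≤ (2:ℝ) ^ (4 * ε * C * q) := by
        rw [h2, ← Real.exp_add]
        apply Real.exp_le_exp.2
        have h7 : (1:ℝ) / 2 ≤ Real.log 2 := by linarith [Real.log_two_gt_d9]
        have h8 := mul_le_mul_of_nonneg_right h7 (by positivity : 0 ≤ 4 * ε * C * q)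
        linarith
      have h5 : (4:ℝ) ≤ Real.exp 2 := by
        have h6 : Real.exp 2 = Real.exp 1 * Real.exp 1 := by rw [← Real.exp_add]; norm_num
        rw [h6]
        have h7 : (2:ℝ) ≤ Real.exp 1 := by linarith [Real.exp_one_gt_d9]
        calc (4:ℝ) = 2 * 2 := by norm_num
          _ ≤ Real.exp 1 * Real.exp 1 := mul_le_mul h7 h7 (by norm_num) (Real.exp_pos 1).le
      rw [le_div_iff₀ (by norm_num)]
      have h6 := mul_le_mul_of_nonneg_right h5 (Real.exp_pos (ε * C * q)).le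
      linarith
    obtain ⟨σ, hσF, hσc, hσB⟩ := capt hq1 h hC0.le hs0.le (by linarith) hη
      (a := 4 * ε * C * q) (by positivity) F hF Z hbig hseed B3 hB3F (fun l hl => by
        rw [hB3, mem_filter, acF_gcf] at hl
        exact hl.2)
    refine ⟨σ, hσF, hσc, ?_⟩
    have h1 : (B3.filter fun l => l ∈ σ ∨
        l ∈ atyp pts q (η / 2) (Z.filter fun v => ∀ l' ∈ σ, v ∉ pts l')) ⊆
        F.filter fun l => l ∈ σ ∨
          l ∈ atyp pts q (min (ξ / 2) (η / 2)) (Z.filter fun v => ∀ l' ∈ σ, v ∉ pts l') := by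
      intro l hl
      rw [mem_filter] at hl ⊢
      refine ⟨hB3F hl.1, hl.2.imp id fun h => atyp_mono (min_le_right _ _) _ h⟩
    refine le_trans ?_ (Nat.cast_le.2 (card_le_card h1))
    linarith

end Vale.Agent.P045
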